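import Vale.Agent.P133.PartA
import Vale.Agent.P133o.Basic

/-!
# P133: ideal lattices generated by join-prime ideals (completely distributive ideal lattices)
-/

open scoped ComplexOrder

namespace Vale.Agent.P133

universe u

variable {B : Type u} [CStarAlgebra B]

theorem IsIdl.toCI {Q : Submodule ℂ B} (hQ : IsIdl Q) : P133o.IsCI Q :=
  ⟨hQ.1, fun a x hx => (hQ.2 a x hx).1, fun a x hx => (hQ.2 a x hx).2⟩

/-- the closed sum of two closed ideals -/
theorem isIdl_sup {I J : Submodule ℂ B} (hI : IsIdl I) (hJ : IsIdl J) :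
    IsIdl (I ⊔ J).topologicalClosure := by
  have key : ∀ a x, x ∈ I ⊔ J → a * x ∈ I ⊔ J ∧ x * a ∈ I ⊔ J := by
    intro a x hx
    obtain ⟨i, hi, j, hj, rfl⟩ := Submodule.mem_sup.1 hx
    rw [mul_add, add_mul]
    exact ⟨Submodule.mem_sup.2 ⟨_, (hI.2 a i hi).1, _, (hJ.2 a j hj).1, rfl⟩,
      Submodule.mem_sup.2 ⟨_, (hI.2 a i hi).2, _, (hJ.2 a j hj).2, rfl⟩⟩
  refine ⟨Submodule.isClosed_topologicalClosure _, fun a x hx => ⟨?_, ?_⟩⟩
  · exact map_mem_closure (f := fun y : B => a * y) (by fun_prop) hx (fun y hy => (key a y hy).1)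
  · exact map_mem_closure (f := fun y : B => y * a) (by fun_prop) hx (fun y hy => (key a y hy).2)

theorem isIdl_iSup {ι : Type*} {I : ι → Submodule ℂ B} (hI : ∀ i, IsIdl (I i)) :
    IsIdl (⨆ i, I i).topologicalClosure := by
  have key : ∀ a x, x ∈ ⨆ i, I i → a * x ∈ ⨆ i, I i ∧ x * a ∈ ⨆ i, I i := by
    intro a x hx
    refine Submodule.iSup_induction (motive := fun x => a * x ∈ ⨆ i, I i ∧ x * a ∈ ⨆ i, I i)
      I hx ?_ ?_ ?_
    · intro i y hy
      exact ⟨Submodule.mem_iSup_of_mem i ((hI i).2 a y hy).1,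
        Submodule.mem_iSup_of_mem i ((hI i).2 a y hy).2⟩
    · simp
    · intro y z hy hz
      rw [mul_add, add_mul]
      exact ⟨Submodule.add_mem _ hy.1 hz.1, Submodule.add_mem _ hy.2 hz.2⟩
  refine ⟨Submodule.isClosed_topologicalClosure _, fun a x hx => ⟨?_, ?_⟩⟩
  · exact map_mem_closure (f := fun y : B => a * y) (by fun_prop) hx (fun y hy => (key a y hy).1)
  · exact map_mem_closure (f := fun y : B => y * a) (by fun_prop) hx (fun y hy => (key a y hy).2)

/-- join-prime closed ideals inside `S` -/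
structure JPr (S D : Submodule ℂ B) : Prop where
  idl : IsIdl D
  le : D ≤ S
  prime : ∀ I J : Submodule ℂ B, IsIdl I → IsIdl J → I ≤ S → J ≤ S →
    D ≤ (I ⊔ J).topologicalClosure → D ≤ I ∨ D ≤ J

/-- the join-prime ideals generate the lattice of closed ideals inside `S` -/
def GEN (S : Submodule ℂ B) : Prop :=
  ∀ I L : Submodule ℂ B, IsIdl I → IsIdl L → I ≤ S → L ≤ S →
    (∀ D, JPr S D → D ≤ I → D ≤ L) → I ≤ L

section ord

variable [PartialOrder B] [StarOrderedRing B]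

/-- a slightly cut down positive element lies in a finite sum of join-prime ideals -/
theorem exists_cover {S : Submodule ℂ B} (hS : IsIdl S) (hG : GEN S) {x : B} (hx : 0 ≤ x)
    (hxS : x ∈ S) {δ : ℝ} (hδ : 0 < δ) :
    ∃ s : Finset {D : Submodule ℂ B // JPr S D ∧ D ≤ idl x},
      cut δ x ∈ (⨆ i ∈ s, (i : Submodule ℂ B)).topologicalClosure := by
  set ι := {D : Submodule ℂ B // JPr S D ∧ D ≤ idl x} with hι
  set L : Submodule ℂ B := (⨆ i : ι, (i : Submodule ℂ B)).topologicalClosure with hL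
  have hLi : IsIdl L := isIdl_iSup fun i : ι => i.2.1.idl
  have hLS : L ≤ S := Submodule.topologicalClosure_minimal _ (iSup_le fun i : ι => i.2.1.le) hS.1
  have h1 : idl x ≤ L := hG (idl x) L (isIdl_idl x) hLi (idl_le hS hxS) hLS fun D hD hDx =>
    (le_iSup (fun i : ι => (i : Submodule ℂ B)) ⟨D, hD, hDx⟩).trans
      (Submodule.le_topologicalClosure _)
  have h2 : x ∈ closure ((⨆ i : ι, (i : Submodule ℂ B) : Submodule ℂ B) : Set B) :=
    h1 (self_mem_idl x)
  rw [Metric.mem_closure_iff] at h2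
  obtain ⟨q, hq, hqx⟩ := h2 δ hδ
  obtain ⟨s, hs⟩ := (Submodule.mem_iSup_iff_exists_finset).1 hq
  refine ⟨s, ?_⟩
  have hI : IsIdl (⨆ i ∈ s, (i : Submodule ℂ B)).topologicalClosure := by
    have e : (⨆ i ∈ s, (i : Submodule ℂ B)) = ⨆ i : {i : ι // i ∈ s}, ((i : ι) : Submodule ℂ B) :=
      iSup_subtype' (p := fun i : ι => i ∈ s) (f := fun (i : ι) _ => (i : Submodule ℂ B))
    rw [e]
    exact isIdl_iSup fun i : {i : ι // i ∈ s} => (i : ι).2.1.idl
  have h3 := cut_mem_of_dist hI hx (ν := 0) (β := δ) hδ (q := q) (b := x - q)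
    (by rw [cut_zero hx]; abel) (Submodule.le_topologicalClosure _ hs)
    (by rwa [← dist_eq_norm])
  rwa [zero_add] at h3

/-- choice of the level -/
theorem exists_level {S : Submodule ℂ B} {x T : B} (hT : 0 ≤ T)
    (s : Finset {D : Submodule ℂ B // JPr S D ∧ D ≤ idl x}) :
    ∃ μ : ℝ, 0 < μ ∧ ∀ i ∈ s, ∀ μ' : ℝ, 0 < μ' → μ' ≤ μ →
      (i : Submodule ℂ B) ≤ idl (cut μ' T) ∨ ∀ ν : ℝ, 0 < ν →
        ¬ (i : Submodule ℂ B) ≤ idl (cut ν T) := by
  classical
  induction s using Finset.induction_on with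
  | empty => exact ⟨1, one_pos, by simp⟩
  | insert a s ha ih =>
    obtain ⟨μ, hμ, h⟩ := ih
    by_cases hc : ∃ ν : ℝ, 0 < ν ∧ (a : Submodule ℂ B) ≤ idl (cut ν T)
    · obtain ⟨ν, hν, hle⟩ := hc
      refine ⟨min μ ν, lt_min hμ hν, fun i hi μ' hμ' hm => ?_⟩
      rcases Finset.mem_insert.1 hi with rfl | hi
      · refine Or.inl (hle.trans (idl_le (isIdl_idl _) ?_))
        exact cut_mono_mem (isIdl_idl _) hT (hm.trans (min_le_right _ _)) (self_mem_idl _)
      · exact h i hi μ' hμ' (hm.trans (min_le_left _ _))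
    · refine ⟨μ, hμ, fun i hi μ' hμ' hm => ?_⟩
      rcases Finset.mem_insert.1 hi with rfl | hi
      · refine Or.inr fun ν hν hle => hc ⟨ν, hν, hle⟩
      · exact h i hi μ' hμ' hm

/-- what a row has to cover -/
theorem cut_mem_of_le {X Y : B} (hX : 0 ≤ X) (hY : 0 ≤ Y) (h : X ≤ Y) (c : ℝ) :
    cut c X ∈ idl (cut c Y) := by
  refine P133o.pc_mem_of_le_add (isIdl_idl (cut c Y)).toCI (IsSelfAdjoint.of_nonneg hX)
    (self_mem_idl _) (h.trans ?_)
  exact P133o.le_add_pc c (IsSelfAdjoint.of_nonneg hY)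

/-- Proposition P for rows of length two. -/
theorem exists_w2 (C₁ C₂ : B) {c : ℝ} (hc : 0 < c)
    (hPI : PIat (cut (c ^ 2) (C₁ * star C₁ + C₂ * star C₂))) {d : B}
    (hd : star d = d) (hdG : d ∈ idl (cut (c ^ 2) (C₁ * star C₁ + C₂ * star C₂))) {δ : ℝ}
    (hδ : 0 < δ) :
    ∃ w₁ w₂ : B, ‖star (C₁ * w₁ + C₂ * w₂) * (C₁ * w₁ + C₂ * w₂) - d * d‖ < δ ∧
      c ^ 2 * ‖w₁‖ ^ 2 ≤ ‖d * d‖ + δ ∧ c ^ 2 * ‖w₂‖ ^ 2 ≤ ‖d * d‖ + δ := by
  set X : B := C₁ * star C₁ + C₂ * star C₂ with hX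
  have hX0 : 0 ≤ X := add_nonneg (mul_star_self_nonneg C₁) (mul_star_self_nonneg C₂)
  have hc2 : 0 < c ^ 2 := by positivity
  obtain ⟨v, hv⟩ := exists_v (cut_nonneg (c ^ 2) X) hPI hd hdG hδ
  set k : ℝ → ℝ := fun t => (max t (c ^ 2))⁻¹ * Real.sqrt (max (t - c ^ 2) 0) with hk
  have hkc : Continuous k := Continuous.mul (Continuous.inv₀ (by fun_prop)
    (fun t => (lt_of_lt_of_le hc2 (le_max_right _ _)).ne')) (by fun_prop)
  have hks : star (cfc k X) = cfc k X := star_cfc k X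
  have hXs : star X = X := IsSelfAdjoint.of_nonneg hX0
  have hktk : cfc k X * X * cfc k X = cfc (fun t => k t * t * k t) X := by
    rw [F_mul hX0 (f := fun t => k t * t) (g := k) (hkc.mul continuous_id') hkc
      (h := fun t => k t * t * k t) (fun t _ => rfl),
      F_mulX hX0 hkc (h := fun t => k t * t) (fun t _ => rfl)]
  have hkt2 : cfc k X * X * (X * cfc k X) = cut (c ^ 2) X := by
    have h1 : cfc k X * X = cfc (fun t => k t * t) X :=
      (F_mulX hX0 hkc (h := fun t => k t * t) (fun t _ => rfl)).symm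
    have h2 : X * cfc k X = cfc (fun t => t * k t) X :=
      (F_Xmul hX0 hkc (h := fun t => t * k t) (fun t _ => rfl)).symm
    rw [h1, h2]
    symm
    refine F_mul hX0 (hkc.mul continuous_id') (continuous_id'.mul hkc) fun t ht => ?_
    rcases le_or_gt t (c ^ 2) with h | h
    · have h3 : max (t - c ^ 2) 0 = 0 := max_eq_right (by linarith)
      have h4 : k t = 0 := by
        rw [hk]
        show (max t (c ^ 2))⁻¹ * Real.sqrt (max (t - c ^ 2) 0) = 0
        rw [h3, Real.sqrt_zero, mul_zero]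
      rw [h3, h4]
      ring
    · have ht0 : 0 < t := lt_trans hc2 h
      have h3 : max (t - c ^ 2) 0 = t - c ^ 2 := max_eq_left (by linarith)
      have h4 : k t * t = Real.sqrt (t - c ^ 2) := by
        rw [hk]
        show (max t (c ^ 2))⁻¹ * Real.sqrt (max (t - c ^ 2) 0) * t = _
        rw [h3, max_eq_left h.le]
        field_simp
      show max (t - c ^ 2) 0 = k t * t * (t * k t)
      rw [h3, mul_comm t (k t), h4, Real.mul_self_sqrt (by linarith)]
  have hkX : cfc k X * X * cfc k X ≤ (c ^ 2)⁻¹ • cut (c ^ 2) X := by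
    rw [hktk, cut, ← cfc_const_mul ((c ^ 2)⁻¹) _ X (by fun_prop)]
    refine F_mono hX0 ((hkc.mul continuous_id').mul hkc) (by fun_prop) fun t ht => ?_
    rcases le_or_gt t (c ^ 2) with h | h
    · have h3 : max (t - c ^ 2) 0 = 0 := max_eq_right (by linarith)
      have h4 : k t = 0 := by
        rw [hk]
        show (max t (c ^ 2))⁻¹ * Real.sqrt (max (t - c ^ 2) 0) = 0
        rw [h3, Real.sqrt_zero, mul_zero]
      rw [h3, h4]
      simp
    · have ht0 : 0 < t := lt_trans hc2 h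
      have h3 : max (t - c ^ 2) 0 = t - c ^ 2 := max_eq_left (by linarith)
      have h5 : k t = t⁻¹ * Real.sqrt (t - c ^ 2) := by
        rw [hk]
        show (max t (c ^ 2))⁻¹ * Real.sqrt (max (t - c ^ 2) 0) = _
        rw [h3, max_eq_left h.le]
      have h6 : k t * t * k t = t⁻¹ * (t - c ^ 2) := by
        rw [h5]
        have h7 := Real.mul_self_sqrt (show 0 ≤ t - c ^ 2 by linarith)
        calc t⁻¹ * Real.sqrt (t - c ^ 2) * t * (t⁻¹ * Real.sqrt (t - c ^ 2))
            = (t⁻¹ * t) * t⁻¹ * (Real.sqrt (t - c ^ 2) * Real.sqrt (t - c ^ 2)) := by ring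
          _ = t⁻¹ * (t - c ^ 2) := by rw [h7, inv_mul_cancel₀ ht0.ne', one_mul]
      show k t * t * k t ≤ (c ^ 2)⁻¹ * max (t - c ^ 2) 0
      rw [h6, h3]
      have h8 : 0 ≤ t - c ^ 2 := by linarith
      have h9 : t⁻¹ ≤ (c ^ 2)⁻¹ := inv_anti₀ hc2 h.le
      exact mul_le_mul_of_nonneg_right h9 h8
  have h4 : ‖star v * cut (c ^ 2) X * v‖ ≤ ‖d * d‖ + δ := by
    have : star v * cut (c ^ 2) X * v = d * d + (star v * cut (c ^ 2) X * v - d * d) := by abel
    rw [this]
    exact (norm_add_le _ _).trans (by linarith)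
  have hw : ∀ C : B, C * star C ≤ X →
      c ^ 2 * ‖star C * (cfc k X * v)‖ ^ 2 ≤ ‖d * d‖ + δ := by
    intro C hC
    have h1 : star (star C * (cfc k X * v)) * (star C * (cfc k X * v))
        = star (cfc k X * v) * (C * star C) * (cfc k X * v) := by
      simp only [star_mul, star_star, mul_assoc]
    have h2 : star (cfc k X * v) * (C * star C) * (cfc k X * v) ≤
        (c ^ 2)⁻¹ • (star v * cut (c ^ 2) X * v) := by
      refine (conj_le hC (cfc k X * v)).trans ?_
      have := conj_le hkX v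
      rw [mul_smul_comm, smul_mul_assoc] at this
      refine le_trans (le_of_eq ?_) this
      simp only [star_mul, hks, mul_assoc]
    have h3 : ‖star C * (cfc k X * v)‖ ^ 2 ≤ (c ^ 2)⁻¹ * ‖star v * cut (c ^ 2) X * v‖ := by
      rw [norm_sq_eq]
      have h5 : star (star C * (cfc k X * v)) * (star C * (cfc k X * v)) ≤
          (c ^ 2)⁻¹ • (star v * cut (c ^ 2) X * v) := by rw [h1]; exact h2
      refine (CStarAlgebra.norm_le_norm_of_nonneg_of_le (star_mul_self_nonneg _) h5).trans ?_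
      rw [norm_smul, Real.norm_eq_abs, abs_of_pos (inv_pos.2 hc2)]
    calc c ^ 2 * ‖star C * (cfc k X * v)‖ ^ 2
        ≤ c ^ 2 * ((c ^ 2)⁻¹ * ‖star v * cut (c ^ 2) X * v‖) := by gcongr
      _ = ‖star v * cut (c ^ 2) X * v‖ := by rw [← mul_assoc, mul_inv_cancel₀ hc2.ne', one_mul]
      _ ≤ _ := h4
  refine ⟨star C₁ * (cfc k X * v), star C₂ * (cfc k X * v), ?_, hw C₁ ?_, hw C₂ ?_⟩
  · have h1 : C₁ * (star C₁ * (cfc k X * v)) + C₂ * (star C₂ * (cfc k X * v))
        = X * (cfc k X * v) := by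
      rw [hX]; noncomm_ring
    have h2 : star (X * (cfc k X * v)) * (X * (cfc k X * v))
        = star v * (cfc k X * X * (X * cfc k X)) * v := by
      simp only [star_mul, hks, hXs, mul_assoc]
    rw [h1, h2, hkt2]
    exact hv
  · rw [hX]
    exact le_add_of_nonneg_right (mul_star_self_nonneg C₂)
  · rw [hX]
    exact le_add_of_nonneg_left (mul_star_self_nonneg C₁)

end ord

end Vale.Agent.P133
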