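import Vale.Agent.P133.FT
import Vale.Agent.P133o.DefsF

/-!
# P133: completely distributive ideal lattices have finite tests
-/

open scoped ComplexOrder

namespace Vale.Agent.P133

universe u

section ord

variable {B : Type u} [CStarAlgebra B]

theorem isIdl_finset {ι : Type*} {f : ι → Submodule ℂ B} (hf : ∀ i, IsIdl (f i)) (t : Finset ι) :
    IsIdl (⨆ i ∈ t, f i).topologicalClosure := by
  have e : (⨆ i ∈ t, f i) = ⨆ i : {i : ι // i ∈ t}, f (i : ι) :=
    iSup_subtype' (p := fun i : ι => i ∈ t) (f := fun (i : ι) _ => f i)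
  rw [e]
  exact isIdl_iSup fun i : {i : ι // i ∈ t} => hf i

/-- join-prime ideals and finite sums -/
theorem JPr.finset {S D : Submodule ℂ B} (hS : IsIdl S) (hD : JPr S D) {ι : Type*}
    {f : ι → Submodule ℂ B} (hf : ∀ i, IsIdl (f i)) (hfS : ∀ i, f i ≤ S) (t : Finset ι)
    (h : D ≤ (⨆ i ∈ t, f i).topologicalClosure) : (∃ i ∈ t, D ≤ f i) ∨ D ≤ ⊥ := by
  classical
  induction t using Finset.induction_on with
  | empty =>
    right
    refine h.trans ?_
    have : (⨆ i ∈ (∅ : Finset ι), f i) = ⊥ := by simp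
    rw [this]
    refine Submodule.topologicalClosure_minimal _ le_rfl ?_
    simp
  | insert a t ha ih =>
    have hJ := isIdl_finset hf t
    have hJS : (⨆ i ∈ t, f i).topologicalClosure ≤ S :=
      Submodule.topologicalClosure_minimal _ (iSup₂_le fun i _ => hfS i) hS.1
    have h1 : D ≤ (f a ⊔ (⨆ i ∈ t, f i).topologicalClosure).topologicalClosure := by
      refine h.trans (Submodule.topologicalClosure_mono ?_)
      rw [Finset.iSup_insert]
      exact sup_le_sup le_rfl (Submodule.le_topologicalClosure _)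
    rcases hD.prime _ _ (hf a) hJ (hfS a) hJS h1 with h2 | h2
    · exact Or.inl ⟨a, Finset.mem_insert_self _ _, h2⟩
    · rcases ih h2 with ⟨i, hi, h3⟩ | h3
      · exact Or.inl ⟨i, Finset.mem_insert_of_mem hi, h3⟩
      · exact Or.inr h3

variable [PartialOrder B] [StarOrderedRing B]

/-- the largest closed ideal which is generated by ideals not containing `D` -/
noncomputable def ND (S D : Submodule ℂ B) : Submodule ℂ B :=
  (⨆ I : {I : Submodule ℂ B // IsIdl I ∧ I ≤ S ∧ ¬ D ≤ I}, (I : Submodule ℂ B)).topologicalClosure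

omit [PartialOrder B] [StarOrderedRing B] in
theorem isIdl_ND (S D : Submodule ℂ B) : IsIdl (ND S D) :=
  isIdl_iSup fun I : {I : Submodule ℂ B // IsIdl I ∧ I ≤ S ∧ ¬ D ≤ I} => I.2.1

omit [PartialOrder B] [StarOrderedRing B] in
theorem le_ND {S D I : Submodule ℂ B} (hI : IsIdl I) (hIS : I ≤ S) (h : ¬ D ≤ I) :
    I ≤ ND S D :=
  (le_iSup (fun I : {I : Submodule ℂ B // IsIdl I ∧ I ≤ S ∧ ¬ D ≤ I} => (I : Submodule ℂ B))
    ⟨I, hI, hIS, h⟩).trans (Submodule.le_topologicalClosure _)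

theorem notMem_ND {S D : Submodule ℂ B} (hS : IsIdl S) (hD : JPr S D) {h : B} (hh : 0 ≤ h)
    (h0 : h ≠ 0) {δ : ℝ} (hδ : 0 < δ) (hDh : D ≤ idl (cut δ h)) : h ∉ ND S D := by
  intro hmem
  have h2 : h ∈ closure ((⨆ I : {I : Submodule ℂ B // IsIdl I ∧ I ≤ S ∧ ¬ D ≤ I},
      (I : Submodule ℂ B) : Submodule ℂ B) : Set B) := hmem
  have h2' := h2
  rw [Metric.mem_closure_iff] at h2
  obtain ⟨q, hq, hqx⟩ := h2 δ hδ
  obtain ⟨s, hs⟩ := (Submodule.mem_iSup_iff_exists_finset).1 hq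
  have hI := isIdl_finset (f := fun I : {I : Submodule ℂ B // IsIdl I ∧ I ≤ S ∧ ¬ D ≤ I} =>
    (I : Submodule ℂ B)) (fun I => I.2.1) s
  have h3 := cut_mem_of_dist hI hh (ν := 0) (β := δ) hδ (q := q) (b := h - q)
    (by rw [cut_zero hh]; abel) (Submodule.le_topologicalClosure _ hs)
    (by rwa [← dist_eq_norm])
  rw [zero_add] at h3
  rcases hD.finset hS (f := fun I : {I : Submodule ℂ B // IsIdl I ∧ I ≤ S ∧ ¬ D ≤ I} =>
    (I : Submodule ℂ B)) (fun I => I.2.1) (fun I => I.2.2.1) s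
    (hDh.trans (idl_le hI h3)) with ⟨I, -, hle⟩ | hbot
  · exact I.2.2.2 hle
  · have hem : IsEmpty {I : Submodule ℂ B // IsIdl I ∧ I ≤ S ∧ ¬ D ≤ I} :=
      ⟨fun I => I.2.2.2 (hbot.trans bot_le)⟩
    rw [iSup_of_empty] at h2'
    simp at h2'
    exact h0 h2'

theorem FTr_of_GEN {S : Submodule ℂ B} (hS : IsIdl S) (hG : GEN S) : FTr S := by
  intro h hhS hh ε hε
  by_cases h0 : h = 0
  · refine ⟨0, Fin.elim0, fun j => j.elim0, fun I _ _ hd => ?_⟩
    have := hd 0 I.zero_mem
    rw [h0, sub_zero, norm_zero] at this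
    exact absurd this (not_le.2 hε)
  have hx'S : cut (ε / 4) h ∈ S := by
    have := cut_mono_mem (μ₀ := 0) (μ := ε / 4) hS hh (by positivity) (by rwa [cut_zero hh])
    exact this
  obtain ⟨s, hs⟩ := exists_cover hS hG (cut_nonneg (ε / 4) h) hx'S (δ := ε / 4) (by positivity)
  let e := s.equivFin
  refine ⟨s.card, fun j => ND S ((e.symm j : {D : Submodule ℂ B // JPr S D ∧
    D ≤ idl (cut (ε / 4) h)}) : Submodule ℂ B), fun j => ⟨isIdl_ND _ _, ?_⟩, ?_⟩
  · exact notMem_ND hS (e.symm j).1.2.1 hh h0 (by positivity) (e.symm j).1.2.2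
  · intro I hI hIS hd
    by_contra hcon
    push Not at hcon
    have hall : ∀ i ∈ s, (i : Submodule ℂ B) ≤ I := by
      intro i hi
      by_contra hni
      refine hcon (e ⟨i, hi⟩) ?_
      rw [Equiv.symm_apply_apply]
      exact le_ND hI hIS hni
    have h1 : (⨆ i ∈ s, (i : Submodule ℂ B)).topologicalClosure ≤ I :=
      Submodule.topologicalClosure_minimal _ (iSup₂_le hall) hI.1
    have h2 := hd _ (h1 hs)
    have h3 := norm_sub_cut hh (ε := ε / 4) (by positivity)
    have h4 := norm_sub_cut (cut_nonneg (ε / 4) h) (ε := ε / 4) (by positivity)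
    have h5 : ‖h - cut (ε / 4) (cut (ε / 4) h)‖ ≤ ε / 4 + ε / 4 := by
      calc ‖h - cut (ε / 4) (cut (ε / 4) h)‖ =
          ‖(h - cut (ε / 4) h) + (cut (ε / 4) h - cut (ε / 4) (cut (ε / 4) h))‖ := by
            congr 1
            abel
        _ ≤ _ := norm_add_le _ _
        _ ≤ _ := add_le_add h3 h4
    linarith

end ord

variable {A : Type u} [NonUnitalCStarAlgebra A]

/-- If every closed ideal is generated by the join-prime ideals which it contains, then `A` has
finite tests. -/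
theorem finiteTests_of_joinPrimesGenerate (hA : JoinPrimesGenerate A) : FiniteTests A := by
  let _ := CStarAlgebra.spectralOrder (Unitization ℂ A)
  have _ := CStarAlgebra.spectralOrderedRing (Unitization ℂ A)
  intro h hh ε hε
  obtain ⟨m, M, hM, hMt⟩ := FTr_of_GEN isIdl_SA (GEN_SA hA) _ (mem_SA.2 ⟨h, rfl⟩)
    (nonneg_of_isPos hh) ε hε
  refine ⟨m, fun j => (M j).comap (Unitization.inrHom ℂ ℂ A), fun j =>
    ⟨comap_closed (hM j).1, fun hz => (hM j).2 hz⟩, fun I hI hd => ?_⟩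
  have h1 : I.map (Unitization.inrHom ℂ ℂ A) ≤ SA A := by
    rintro _ ⟨x, hx, rfl⟩
    exact mem_SA.2 ⟨x, rfl⟩
  have h2 : ∀ y ∈ I.map (Unitization.inrHom ℂ ℂ A), ε ≤ ‖(h : Unitization ℂ A) - y‖ := by
    rintro _ ⟨x, hx, rfl⟩
    have := hd x hx
    rwa [← Unitization.norm_inr (𝕜 := ℂ) (A := A), Unitization.inr_sub] at this
  obtain ⟨j, hj⟩ := hMt _ (map_isIdl hI) h1 h2
  exact ⟨j, fun x hx => hj ⟨x, hx, rfl⟩⟩

/-- The same in the definitions of the folder `P133o`. -/
theorem finiteTests_o (hA : JoinPrimesGenerate A) : P133o.FiniteTests A :=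
  finiteTests_of_joinPrimesGenerate hA

end Vale.Agent.P133
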