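import Vale.Agent.P133.Defs

/-!
# P133: ideal lattices generated by join-prime ideals
-/

namespace Vale.Agent.P133

universe u

/-- The closed two-sided ideal `D` is join-prime: whenever it is contained in the closed ideal
generated by two closed ideals `I` and `J`, it is contained in `I` or in `J`. -/
def JoinPrime {A : Type u} [NonUnitalCStarAlgebra A] (D : Submodule ℂ A) : Prop :=
  IsClosedIdeal D ∧ ∀ I J : Submodule ℂ A, IsClosedIdeal I → IsClosedIdeal J →
    D ≤ (I ⊔ J).topologicalClosure → D ≤ I ∨ D ≤ J

/-- Every closed two-sided ideal is generated by the join-prime ideals which it contains: if a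
closed ideal `L` contains every join-prime ideal contained in the closed ideal `I`, then it
contains `I`. (The lattice of closed ideals is completely distributive.) -/
def JoinPrimesGenerate (A : Type u) [NonUnitalCStarAlgebra A] : Prop :=
  ∀ I L : Submodule ℂ A, IsClosedIdeal I → IsClosedIdeal L →
    (∀ D : Submodule ℂ A, JoinPrime D → D ≤ I → D ≤ L) → I ≤ L

/-- If the closed ideals are totally ordered, then every closed ideal is join-prime. -/
theorem joinPrimesGenerate_of_totallyOrdered {A : Type u} [NonUnitalCStarAlgebra A]
    (h : TotallyOrderedIdeals A) : JoinPrimesGenerate A := by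
  intro I L hI hL hD
  refine hD I ⟨hI, fun J₁ J₂ h1 h2 hle => ?_⟩ le_rfl
  rcases h J₁ J₂ h1 h2 with h3 | h3
  · right
    rw [sup_eq_right.2 h3] at hle
    exact hle.trans (Submodule.topologicalClosure_minimal _ le_rfl h2.1)
  · left
    rw [sup_eq_left.2 h3] at hle
    exact hle.trans (Submodule.topologicalClosure_minimal _ le_rfl h1.1)

end Vale.Agent.P133
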