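import Vale.Agent.P133.CDMain
import Vale.Agent.P133.DefsCD

/-!
# P133: purely infinite algebras with completely distributive ideal lattice
-/

open scoped ComplexOrder

namespace Vale.Agent.P133

universe u

section ord

variable {B : Type u} [CStarAlgebra B] [PartialOrder B] [StarOrderedRing B]

theorem norm_sub_cut {x : B} (hx : 0 ≤ x) {ε : ℝ} (hε : 0 ≤ ε) : ‖x - cut ε x‖ ≤ ε := by
  have e3 : x - cut ε x = cfc (fun t : ℝ => t - max (t - ε) 0) x := by
    rw [cfc_sub (fun t : ℝ => t) (fun t : ℝ => max (t - ε) 0) x (by fun_prop) (by fun_prop),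
      cfc_id' ℝ x (IsSelfAdjoint.of_nonneg hx), cut]
  rw [e3]
  refine norm_F_le hx hε fun t ht => ?_
  rcases le_or_gt t ε with h | h
  · rw [max_eq_right (show t - ε ≤ 0 by linarith), sub_zero, abs_of_nonneg ht]
    exact h
  · rw [max_eq_left (show 0 ≤ t - ε by linarith), abs_of_nonneg (by linarith)]
    linarith

theorem cutoff' {S : Submodule ℂ B} (hS : IsIdl S) {x : B} (hx : 0 ≤ x) (hxS : x ∈ S) {ε : ℝ}
    (hε : 0 < ε) : ∃ g e : B, g ∈ S ∧ e ∈ S ∧ star e = e ∧ ‖e‖ ≤ 1 ∧ x * g = e ∧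
      e * cut ε x = cut ε x := by
  set f : ℝ → ℝ := fun t => max 0 (min 1 (2 * t / ε - 1)) with hf
  have hfc : Continuous f := by
    rw [hf]; fun_prop
  have hm0 : ∀ t : ℝ, 0 < max t (ε / 2) := fun t =>
    lt_of_lt_of_le (by positivity) (le_max_right _ _)
  have hic : Continuous fun t : ℝ => (max t (ε / 2))⁻¹ :=
    Continuous.inv₀ (by fun_prop) (fun t => (hm0 t).ne')
  set g : ℝ → ℝ := fun t => f t * (max t (ε / 2))⁻¹ with hg
  have hgc : Continuous g := hfc.mul hic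
  set k : ℝ → ℝ := fun t => g t * (max t (ε / 2))⁻¹ with hk
  have hkc : Continuous k := hgc.mul hic
  have hf0 : ∀ t, t ≤ ε / 2 → f t = 0 := by
    intro t ht
    have h1 : 2 * t / ε - 1 ≤ 0 := by
      rw [sub_nonpos, div_le_one hε]; linarith
    exact max_eq_left ((min_le_right _ _).trans h1)
  have hf1 : ∀ t, ε ≤ t → f t = 1 := by
    intro t ht
    have h1 : 1 ≤ 2 * t / ε - 1 := by
      rw [le_sub_iff_add_le, le_div_iff₀ hε]; linarith
    show max 0 (min 1 (2 * t / ε - 1)) = 1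
    rw [min_eq_left h1, max_eq_right zero_le_one]
  have htg : ∀ t, 0 ≤ t → f t = t * g t := by
    intro t ht
    rcases le_or_gt t (ε / 2) with h | h
    · have : g t = 0 := by rw [hg]; show f t * _ = 0; rw [hf0 t h, zero_mul]
      rw [hf0 t h, this, mul_zero]
    · show f t = t * (f t * (max t (ε / 2))⁻¹)
      rw [max_eq_left h.le]
      have : t ≠ 0 := by linarith
      field_simp
  have htk : ∀ t, 0 ≤ t → g t = t * k t := by
    intro t ht
    rcases le_or_gt t (ε / 2) with h | h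
    · have h1 : g t = 0 := by rw [hg]; show f t * _ = 0; rw [hf0 t h, zero_mul]
      have h2 : k t = 0 := by rw [hk]; show g t * _ = 0; rw [h1, zero_mul]
      rw [h1, h2, mul_zero]
    · show g t = t * (g t * (max t (ε / 2))⁻¹)
      rw [max_eq_left h.le]
      have : t ≠ 0 := by linarith
      field_simp
  have e1 : x * cfc g x = cfc f x := (F_Xmul hx hgc htg).symm
  have e2 : x * cfc k x = cfc g x := (F_Xmul hx hkc htk).symm
  refine ⟨cfc g x, cfc f x, ?_, ?_, star_cfc _ _, ?_, e1, ?_⟩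
  · rw [← e2]; exact (hS.2 _ x hxS).2
  · rw [← e1]; exact (hS.2 _ x hxS).2
  · refine norm_F_le hx zero_le_one fun t _ => ?_
    rw [abs_of_nonneg (le_max_left _ _)]
    exact max_le zero_le_one (min_le_left _ _)
  · refine (F_mul hx hfc (by fun_prop) fun t _ => ?_).symm
    rcases le_or_gt t ε with h | h
    · rw [max_eq_right (show t - ε ≤ 0 by linarith), mul_zero]
    · rw [hf1 t h.le, one_mul]

theorem coreCD {S : Submodule ℂ B} (hS : IsIdl S) (hPI : ∀ G ∈ S, 0 ≤ G → PIat G)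
    (hG : GEN S) {x y : B} (hx : 0 ≤ x) (hy : 0 ≤ y) (hxS : x ∈ S) (hyS : y ∈ S) {ε : ℝ}
    (hε : 0 < ε) :
    ∃ s ∈ S, ∃ t ∈ S, ‖star s * (x * x) * s - x * x‖ < ε ∧ ‖star t * (y * y) * t - y * y‖ < ε ∧
      ‖star s * (x * y) * t‖ < ε := by
  set ε₀ : ℝ := min 1 (ε / (4 * (‖x‖ + ‖y‖ + 1))) with hε₀
  have hε₀0 : 0 < ε₀ := lt_min one_pos (by positivity)
  have hbd : ∀ r : ℝ, 0 ≤ r → r ≤ ‖x‖ + ‖y‖ → ε₀ * (2 * r + 1) ≤ ε / 2 := by
    intro r hr0 hr
    calc ε₀ * (2 * r + 1) ≤ (ε / (4 * (‖x‖ + ‖y‖ + 1))) * (2 * (‖x‖ + ‖y‖ + 1)) := by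
          have h1 : ε₀ ≤ ε / (4 * (‖x‖ + ‖y‖ + 1)) := min_le_right _ _
          have h2 : 2 * r + 1 ≤ 2 * (‖x‖ + ‖y‖ + 1) := by linarith
          gcongr
      _ = ε / 2 := by field_simp; norm_num
  have h2pos : 0 < ε₀ / 2 := by positivity
  obtain ⟨g, e, hgS, heS, he, hen, hxg, hed⟩ := cutoff' hS hx hxS h2pos
  obtain ⟨g', e', hgS', heS', he', hen', hyg, hed'⟩ := cutoff' hS hy hyS h2pos
  set x₁ : B := cut (ε₀ / 2) x with hx₁
  set y₁ : B := cut (ε₀ / 2) y with hy₁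
  have hx₁S : x₁ ∈ S := cut_mem hS hx hxS h2pos.le
  have hy₁S : y₁ ∈ S := cut_mem hS hy hyS h2pos.le
  obtain ⟨s, hs⟩ := exists_cover hS hG (cut_nonneg _ _ : 0 ≤ x₁) hx₁S h2pos
  obtain ⟨s', hs'⟩ := exists_cover hS hG (cut_nonneg _ _ : 0 ≤ y₁) hy₁S h2pos
  set d : B := cut (ε₀ / 2) x₁ with hdd
  set d' : B := cut (ε₀ / 2) y₁ with hdd'
  have hd : star d = d := star_cfc _ _
  have hd' : star d' = d' := star_cfc _ _
  have hxd : ‖x - d‖ ≤ ε₀ := by
    have e1 : x - d = (x - x₁) + (x₁ - d) := by abel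
    rw [e1]
    have h1 := norm_sub_cut hx h2pos.le
    have h2 := norm_sub_cut (cut_nonneg (ε₀ / 2) x) h2pos.le
    exact (norm_add_le _ _).trans (by linarith)
  have hyd : ‖y - d'‖ ≤ ε₀ := by
    have e1 : y - d' = (y - y₁) + (y₁ - d') := by abel
    rw [e1]
    have h1 := norm_sub_cut hy h2pos.le
    have h2 := norm_sub_cut (cut_nonneg (ε₀ / 2) y) h2pos.le
    exact (norm_add_le _ _).trans (by linarith)
  obtain ⟨c, hc, hgood⟩ := goodCD hS hPI he he' heS heS' hen hen' hed hed' s s'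
  set M : ℝ := (‖d * d‖ + ε / 2 + 1) / c with hM
  set M' : ℝ := (‖d' * d'‖ + ε / 2 + 1) / c with hM'
  have hM0 : 0 < M := by positivity
  have hM0' : 0 < M' := by positivity
  obtain ⟨C₁, C₂, B₁, B₂, ⟨h11, h12, h21, h22⟩, hcovx, hcovy⟩ :=
    hgood (ε / (8 * (M * M'))) (by positivity)
  have hpi : ∀ (a b : B), a ∈ S → b ∈ S → PIat (cut (c ^ 2) (a * star a + b * star b)) :=
    fun a b ha hb => hPI _ (cut_mem hS (add_nonneg (mul_star_self_nonneg a)
      (mul_star_self_nonneg b)) (S.add_mem ((hS.2 _ a ha).2) ((hS.2 _ b hb).2)) (sq_nonneg c))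
      (cut_nonneg _ _)
  have hdC : d ∈ idl (cut (c ^ 2) (e * C₁ * star (e * C₁) + e * C₂ * star (e * C₂))) :=
    Submodule.topologicalClosure_minimal _ (iSup₂_le hcovx) (isIdl_idl _).1 hs
  have hdD : d' ∈ idl (cut (c ^ 2) (e' * B₁ * star (e' * B₁) + e' * B₂ * star (e' * B₂))) :=
    Submodule.topologicalClosure_minimal _ (iSup₂_le hcovy) (isIdl_idl _).1 hs'
  obtain ⟨w₁, w₂, hw, hwn1, hwn2⟩ := exists_w2 (e * C₁) (e * C₂) hc
    (hpi _ _ ((hS.2 _ e heS).2) ((hS.2 _ e heS).2)) hd hdC (show 0 < ε / 2 by positivity)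
  obtain ⟨v₁, v₂, hv, hvn1, hvn2⟩ := exists_w2 (e' * B₁) (e' * B₂) hc
    (hpi _ _ ((hS.2 _ e' heS').2) ((hS.2 _ e' heS').2)) hd' hdD (show 0 < ε / 2 by positivity)
  have hwM : ∀ (v : B) (K : ℝ), 0 ≤ K → c ^ 2 * ‖v‖ ^ 2 ≤ K → ‖v‖ ≤ (K + 1) / c := by
    intro v K hK h
    rw [le_div_iff₀ hc]
    refine le_of_sq_le_sq ?_ (by positivity)
    nlinarith
  have m1 : ‖w₁‖ ≤ M := hwM w₁ (‖d * d‖ + ε / 2) (by positivity) hwn1
  have m2 : ‖w₂‖ ≤ M := hwM w₂ (‖d * d‖ + ε / 2) (by positivity) hwn2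
  have m3 : ‖v₁‖ ≤ M' := hwM v₁ (‖d' * d'‖ + ε / 2) (by positivity) hvn1
  have m4 : ‖v₂‖ ≤ M' := hwM v₂ (‖d' * d'‖ + ε / 2) (by positivity) hvn2
  have hxs : x * (g * (C₁ * w₁ + C₂ * w₂)) = e * C₁ * w₁ + e * C₂ * w₂ := by
    rw [← hxg]; noncomm_ring
  have hyt : y * (g' * (B₁ * v₁ + B₂ * v₂)) = e' * B₁ * v₁ + e' * B₂ * v₂ := by
    rw [← hyg]; noncomm_ring
  have hxx : star x = x := IsSelfAdjoint.of_nonneg hx
  have hyy : star y = y := IsSelfAdjoint.of_nonneg hy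
  have key : ∀ (u v p q : B), star u = u → star (p) * (u * v) * q = star (u * p) * (v * q) := by
    intro u v p q hu
    rw [star_mul, hu]; simp only [mul_assoc]
  refine ⟨g * (C₁ * w₁ + C₂ * w₂), (hS.2 _ g hgS).2, g' * (B₁ * v₁ + B₂ * v₂),
    (hS.2 _ g' hgS').2, ?_, ?_, ?_⟩
  · rw [key x x _ _ hxx, hxs]
    have h1 := norm_sq_sub hxd (min_le_left _ _)
    have h2 := hbd ‖x‖ (norm_nonneg _) (by linarith [norm_nonneg y])
    have e1 : star (e * C₁ * w₁ + e * C₂ * w₂) * (e * C₁ * w₁ + e * C₂ * w₂) - x * x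
        = (star (e * C₁ * w₁ + e * C₂ * w₂) * (e * C₁ * w₁ + e * C₂ * w₂) - d * d) +
          (d * d - x * x) := by abel
    rw [e1]
    exact (norm_add_le _ _).trans_lt (by linarith)
  · rw [key y y _ _ hyy, hyt]
    have h1 := norm_sq_sub hyd (min_le_left _ _)
    have h2 := hbd ‖y‖ (norm_nonneg _) (by linarith [norm_nonneg x])
    have e1 : star (e' * B₁ * v₁ + e' * B₂ * v₂) * (e' * B₁ * v₁ + e' * B₂ * v₂) - y * y
        = (star (e' * B₁ * v₁ + e' * B₂ * v₂) * (e' * B₁ * v₁ + e' * B₂ * v₂) - d' * d') +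
          (d' * d' - y * y) := by abel
    rw [e1]
    exact (norm_add_le _ _).trans_lt (by linarith)
  · rw [key x y _ _ hxx, hxs, hyt]
    have hb : ∀ (w v P Q : B), ‖w‖ ≤ M → ‖v‖ ≤ M' →
        ‖star P * Q‖ ≤ ε / (8 * (M * M')) → ‖star (P * w) * (Q * v)‖ ≤ ε / 8 := by
      intro w v P Q hw hv h
      have e1 : star (P * w) * (Q * v) = star w * (star P * Q) * v := by
        simp only [star_mul, mul_assoc]
      rw [e1]
      calc ‖star w * (star P * Q) * v‖ ≤ ‖star w‖ * ‖star P * Q‖ * ‖v‖ :=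
            (norm_mul_le _ _).trans (by gcongr; exact norm_mul_le _ _)
        _ ≤ M * (ε / (8 * (M * M'))) * M' := by rw [norm_star]; gcongr
        _ = ε / 8 := by field_simp
    have e1 : star (e * C₁ * w₁ + e * C₂ * w₂) * (e' * B₁ * v₁ + e' * B₂ * v₂) =
        (star (e * C₁ * w₁) * (e' * B₁ * v₁) + star (e * C₁ * w₁) * (e' * B₂ * v₂)) +
        (star (e * C₂ * w₂) * (e' * B₁ * v₁) + star (e * C₂ * w₂) * (e' * B₂ * v₂)) := by
      rw [star_add]; noncomm_ring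
    rw [e1]
    have b1 := hb w₁ v₁ (e * C₁) (e' * B₁) m1 m3 h11
    have b2 := hb w₁ v₂ (e * C₁) (e' * B₂) m1 m4 h12
    have b3 := hb w₂ v₁ (e * C₂) (e' * B₁) m2 m3 h21
    have b4 := hb w₂ v₂ (e * C₂) (e' * B₂) m2 m4 h22
    have t1 := norm_add_le (star (e * C₁ * w₁) * (e' * B₁ * v₁))
      (star (e * C₁ * w₁) * (e' * B₂ * v₂))
    have t2 := norm_add_le (star (e * C₂ * w₂) * (e' * B₁ * v₁))
      (star (e * C₂ * w₂) * (e' * B₂ * v₂))
    refine (norm_add_le _ _).trans_lt ?_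
    linarith

end ord

variable {A : Type u} [NonUnitalCStarAlgebra A]

theorem comap_closed {K : Submodule ℂ (Unitization ℂ A)} (hK : IsIdl K) :
    IsClosedIdeal (K.comap (Unitization.inrHom ℂ ℂ A)) := by
  refine ⟨hK.1.preimage (Unitization.isometry_inr (𝕜 := ℂ) (A := A)).continuous,
    fun a x hx => ?_⟩
  have h1 := hK.2 (a : Unitization ℂ A) _ hx
  rw [Unitization.inrHom_apply, ← Unitization.inr_mul, ← Unitization.inr_mul] at h1
  exact h1

theorem map_isIdl {D : Submodule ℂ A} (hD : IsClosedIdeal D) :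
    IsIdl (D.map (Unitization.inrHom ℂ ℂ A)) := by
  constructor
  · have h : ((D.map (Unitization.inrHom ℂ ℂ A) : Submodule ℂ (Unitization ℂ A)) :
        Set (Unitization ℂ A)) = (fun a : A => (a : Unitization ℂ A)) '' (D : Set A) := rfl
    rw [h]
    exact (Unitization.isometry_inr (𝕜 := ℂ) (A := A)).isClosedEmbedding.isClosedMap _ hD.1
  · rintro b _ ⟨x, hx, rfl⟩
    have e1 : b * Unitization.inrHom ℂ ℂ A x =
        Unitization.inrHom ℂ ℂ A (b.fst • x + b.snd * x) := by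
      ext <;> simp
    have e2 : Unitization.inrHom ℂ ℂ A x * b =
        Unitization.inrHom ℂ ℂ A (b.fst • x + x * b.snd) := by
      ext <;> simp
    rw [e1, e2]
    exact ⟨⟨_, D.add_mem (D.smul_mem _ hx) (hD.2 _ x hx).1, rfl⟩,
      ⟨_, D.add_mem (D.smul_mem _ hx) (hD.2 _ x hx).2, rfl⟩⟩

theorem map_comap_eq' {K : Submodule ℂ (Unitization ℂ A)} (hK : K ≤ SA A) :
    (K.comap (Unitization.inrHom ℂ ℂ A)).map (Unitization.inrHom ℂ ℂ A) = K := by
  rw [Submodule.map_comap_eq]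
  exact inf_eq_right.2 hK

theorem GEN_SA (hA : JoinPrimesGenerate A) : GEN (SA A) := by
  intro I L hI hL hIS hLS h
  have hle : I.comap (Unitization.inrHom ℂ ℂ A) ≤ L.comap (Unitization.inrHom ℂ ℂ A) := by
    refine hA _ _ (comap_closed hI) (comap_closed hL) fun D hD hDI => ?_
    have h1 : D.map (Unitization.inrHom ℂ ℂ A) ≤ L := by
      refine h _ ⟨map_isIdl hD.1, ?_, fun J₁ J₂ hJ₁ hJ₂ hJ₁S hJ₂S hle => ?_⟩ ?_
      · rintro _ ⟨x, hx, rfl⟩
        exact mem_SA.2 ⟨x, rfl⟩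
      · have h2 : D ≤ (J₁.comap (Unitization.inrHom ℂ ℂ A) ⊔
            J₂.comap (Unitization.inrHom ℂ ℂ A)).topologicalClosure := by
          intro x hx
          have h3 : (x : Unitization ℂ A) ∈ (J₁ ⊔ J₂).topologicalClosure := hle ⟨x, hx, rfl⟩
          have h4 : J₁ ⊔ J₂ = (J₁.comap (Unitization.inrHom ℂ ℂ A) ⊔
              J₂.comap (Unitization.inrHom ℂ ℂ A)).map (Unitization.inrHom ℂ ℂ A) := by
            rw [Submodule.map_sup, map_comap_eq' hJ₁S, map_comap_eq' hJ₂S]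
          rw [h4] at h3
          have h5 := (Unitization.isometry_inr (𝕜 := ℂ)
            (A := A)).isClosedEmbedding.isInducing.closure_eq_preimage_closure_image
            (J₁.comap (Unitization.inrHom ℂ ℂ A) ⊔ J₂.comap (Unitization.inrHom ℂ ℂ A) :
              Submodule ℂ A)
          have h6 : x ∈ closure ((J₁.comap (Unitization.inrHom ℂ ℂ A) ⊔
            J₂.comap (Unitization.inrHom ℂ ℂ A) : Submodule ℂ A) : Set A) := by
            rw [h5]
            exact h3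
          exact h6
        rcases hD.2 _ _ (comap_closed hJ₁) (comap_closed hJ₂) h2 with h3 | h3
        · left
          rintro _ ⟨x, hx, rfl⟩
          exact h3 hx
        · right
          rintro _ ⟨x, hx, rfl⟩
          exact h3 hx
      · rintro _ ⟨x, hx, rfl⟩
        exact hDI hx
    intro x hx
    exact h1 ⟨x, hx, rfl⟩
  intro z hz
  obtain ⟨a, rfl⟩ := mem_SA.1 (hIS hz)
  exact hle hz

theorem PIat_SA [PartialOrder (Unitization ℂ A)] [StarOrderedRing (Unitization ℂ A)]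
    (h : PurelyInfinite A) : ∀ G ∈ SA A, 0 ≤ G → PIat G := by
  intro G hG hG0 ε hε
  obtain ⟨a, has, haa, _⟩ := exists_root hG0 hG
  have hGa : G = ((a * a : A) : Unitization ℂ A) := haa.symm
  obtain ⟨x, hx⟩ := amplPI_iff.1 (h (a * a) ⟨a, by rw [has]⟩) ε hε
  have hn : ∀ i j, ‖star ((x 0 i : A) : Unitization ℂ A) * G * ((x 0 j : A) : Unitization ℂ A) -
      (if i = j then G else 0)‖ < ε := by
    intro i j
    have h1 := hx i j
    rw [Fin.sum_univ_one, ← Unitization.norm_inr (𝕜 := ℂ) (A := A)] at h1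
    rw [hGa]
    by_cases hij : i = j
    · simpa [hij] using h1
    · simpa [hij] using h1
  refine ⟨x 0 (Sum.inl 0), x 0 (Sum.inr 0), ?_, ?_, ?_⟩
  · simpa using hn (Sum.inl 0) (Sum.inl 0)
  · simpa using hn (Sum.inr 0) (Sum.inr 0)
  · simpa using hn (Sum.inl 0) (Sum.inr 0)

/-- Purely infinite algebras whose ideal lattice is generated by join-prime ideals are strongly
purely infinite. -/
theorem spi_of_pi_CD (hA : JoinPrimesGenerate A) (h : PurelyInfinite A) :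
    StronglyPurelyInfinite A := by
  let _ := CStarAlgebra.spectralOrder (Unitization ℂ A)
  have _ := CStarAlgebra.spectralOrderedRing (Unitization ℂ A)
  intro x y hx hy ε hε
  obtain ⟨s, hs, t, ht, h1, h2, h3⟩ := coreCD isIdl_SA (PIat_SA h) (GEN_SA hA)
    (nonneg_of_isPos hx) (nonneg_of_isPos hy) (mem_SA.2 ⟨x, rfl⟩) (mem_SA.2 ⟨y, rfl⟩) hε
  obtain ⟨s', rfl⟩ := mem_SA.1 hs
  obtain ⟨t', rfl⟩ := mem_SA.1 ht
  refine ⟨s', t', ?_, ?_, ?_⟩
  · rw [← Unitization.norm_inr (𝕜 := ℂ) (A := A)]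
    simpa using h1
  · rw [← Unitization.norm_inr (𝕜 := ℂ) (A := A)]
    simpa using h2
  · rw [← Unitization.norm_inr (𝕜 := ℂ) (A := A)]
    simpa using h3

end Vale.Agent.P133
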