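import Vale.Agent.P133.CD

/-!
# P133: rows of length two and join-prime ideals
-/

open scoped ComplexOrder

namespace Vale.Agent.P133

universe u

variable {B : Type u} [CStarAlgebra B] [PartialOrder B] [StarOrderedRing B]

/-- a two-sided splitting of `a` at a small level -/
theorem exists_split2 (a : B) {μ : ℝ} (hμ : 0 < μ) : ∃ K K' : B, star K = K ∧ star K' = K' ∧
    K ∈ idl (cut μ (star a * a)) ∧ K' ∈ idl (cut μ (star a * a)) ∧
    ‖a * (1 - K)‖ ^ 2 ≤ 2 * μ ∧ ‖1 - K‖ ≤ 1 ∧ star a * K' = K * star a ∧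
    ∀ κ : ℝ → ℝ, Continuous κ → (∀ t, t ≤ 2 * μ → κ t = 0) →
      cfc κ (star a * a) * (1 - K) = 0 ∧
      (1 - K) * (star a * a) * cfc κ (star a * a) = 0 := by
  set X : B := star a * a with hX
  have hX0 : 0 ≤ X := star_mul_self_nonneg a
  have hc1 : Continuous fun t : ℝ => (max (t - μ) μ)⁻¹ :=
    Continuous.inv₀ (by fun_prop) (fun t => (lt_of_lt_of_le hμ (le_max_right _ _)).ne')
  have hc2 : Continuous fun t : ℝ => (max t μ)⁻¹ :=
    Continuous.inv₀ (by fun_prop) (fun t => (lt_of_lt_of_le hμ (le_max_right _ _)).ne')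
  set k : ℝ → ℝ := fun t => (max (t - μ) μ)⁻¹ * max (t - μ) 0 with hk
  have hkc : Continuous k := hc1.mul (by fun_prop)
  have hkz : ∀ t, t ≤ μ → k t = 0 := by
    intro t ht
    show (max (t - μ) μ)⁻¹ * max (t - μ) 0 = 0
    rw [max_eq_right (show t - μ ≤ 0 by linarith), mul_zero]
  have hk1' : ∀ t, 2 * μ ≤ t → k t = 1 := by
    intro t ht
    show (max (t - μ) μ)⁻¹ * max (t - μ) 0 = 1
    rw [max_eq_left (show μ ≤ t - μ by linarith), max_eq_left (show 0 ≤ t - μ by linarith)]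
    exact inv_mul_cancel₀ (by linarith)
  have hk1 : ∀ t, k t ≤ 1 := by
    intro t
    have h1 : 0 < max (t - μ) μ := lt_of_lt_of_le hμ (le_max_right _ _)
    show (max (t - μ) μ)⁻¹ * max (t - μ) 0 ≤ 1
    rw [inv_mul_le_iff₀ h1, mul_one]
    exact max_le_max_left _ hμ.le
  have hk0 : ∀ t, 0 ≤ k t := by
    intro t
    have h1 : 0 < max (t - μ) μ := lt_of_lt_of_le hμ (le_max_right _ _)
    exact mul_nonneg (inv_nonneg.2 h1.le) (le_max_right _ _)
  set h : ℝ → ℝ := fun t => (max t μ)⁻¹ * k t with hh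
  have hhc : Continuous h := hc2.mul hkc
  have hth : ∀ t, 0 ≤ t → k t = t * h t := by
    intro t ht
    rcases le_or_gt t μ with h1 | h1
    · show k t = t * ((max t μ)⁻¹ * k t)
      rw [hkz t h1]; ring
    · show k t = t * ((max t μ)⁻¹ * k t)
      rw [max_eq_left h1.le, ← mul_assoc, mul_inv_cancel₀ (by linarith), one_mul]
  have hKm : ∀ g : ℝ → ℝ, Continuous g → cfc (fun t => g t * k t) X ∈ idl (cut μ X) := by
    intro g hg
    rw [F_mul hX0 (f := fun t => g t * (max (t - μ) μ)⁻¹) (g := fun t : ℝ => max (t - μ) 0)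
      (hg.mul hc1) (by fun_prop) (h := fun t => g t * k t) (fun t _ => by
        show g t * ((max (t - μ) μ)⁻¹ * max (t - μ) 0) = _
        ring)]
    exact ((isIdl_idl _).2 _ _ (self_mem_idl _)).1
  have hh_mem : cfc h X ∈ idl (cut μ X) := hKm (fun t => (max t μ)⁻¹) hc2
  have hk_mem : cfc k X ∈ idl (cut μ X) := by
    have := hKm (fun _ => 1) continuous_const
    simpa using this
  have h1K : (1 : B) - cfc k X = cfc (fun t => 1 - k t) X := by
    rw [cfc_sub (fun _ => 1) k X (by fun_prop) hkc.continuousOn, cfc_const_one ℝ X]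
  have h1kc : Continuous fun t => 1 - k t := continuous_const.sub hkc
  refine ⟨cfc k X, a * cfc h X * star a, star_cfc _ _, ?_, hk_mem, ?_, ?_, ?_, ?_, ?_⟩
  · simp only [star_mul, star_star, star_cfc, mul_assoc]
  · exact ((isIdl_idl _).2 _ _ ((isIdl_idl _).2 a _ hh_mem).1).2
  · rw [norm_sq_eq, star_mul, h1K, star_cfc]
    have h2 : cfc (fun t => 1 - k t) X * star a * (a * cfc (fun t => 1 - k t) X)
        = cfc (fun t => (1 - k t) * t * (1 - k t)) X := by
      rw [F_mul hX0 (f := fun t => (1 - k t) * t) (g := fun t => 1 - k t)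
        (h1kc.mul continuous_id') h1kc
        (h := fun t => (1 - k t) * t * (1 - k t)) (fun t _ => rfl),
        F_mulX hX0 (f := fun t => 1 - k t) h1kc
        (h := fun t => (1 - k t) * t) (fun t _ => rfl), hX]
      simp only [mul_assoc]
    rw [h2]
    refine norm_F_le hX0 (by positivity) fun t ht => ?_
    have h3 := hk0 t
    have h4 := hk1 t
    rw [abs_of_nonneg (by have : 0 ≤ 1 - k t := by linarith
                          positivity)]
    rcases le_or_gt t (2 * μ) with h5 | h5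
    · nlinarith [mul_le_one₀ (show 1 - k t ≤ 1 by linarith) (show 0 ≤ 1 - k t by linarith)
        (show 1 - k t ≤ 1 by linarith)]
    · rw [hk1' t h5.le]
      simp
      positivity
  · rw [h1K]
    refine norm_F_le hX0 zero_le_one fun t _ => ?_
    rw [abs_of_nonneg (by linarith [hk1 t])]
    linarith [hk0 t]
  · have h2 : X * cfc h X = cfc k X := (F_Xmul hX0 hhc hth).symm
    calc star a * (a * cfc h X * star a) = (star a * a) * cfc h X * star a := by
          simp only [mul_assoc]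
      _ = cfc k X * star a := by rw [← hX, h2]
  · intro κ hκc hκ
    have hz : ∀ t, κ t * (1 - k t) = 0 := by
      intro t
      rcases le_or_gt t (2 * μ) with h5 | h5
      · rw [hκ t h5, zero_mul]
      · rw [hk1' t h5.le, sub_self, mul_zero]
    constructor
    · rw [h1K, ← F_mul hX0 hκc h1kc (h := fun _ => (0 : ℝ)) (fun t _ => (hz t).symm),
        cfc_const_zero]
    · rw [h1K, ← F_mulX hX0 h1kc (h := fun t => (1 - k t) * t) (fun t _ => rfl),
        ← F_mul hX0 (f := fun t => (1 - k t) * t) (g := κ) (h1kc.mul continuous_id') hκc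
          (h := fun _ => (0 : ℝ)) (fun t _ => by
            have := hz t
            calc (0 : ℝ) = κ t * (1 - k t) * t := by rw [this, zero_mul]
              _ = (1 - k t) * t * κ t := by ring), cfc_const_zero]

/-- coverage of join-prime ideals by a row -/
theorem cover_row {S : Submodule ℂ B} (hS : IsIdl S) {e x₁ K P₁ P₂ J₀ : B} {c μ : ℝ} {T : B}
    (hc : 0 < c) (hc2 : c ≤ 1 / 2) (hP₁ : P₁ ∈ S) (hP₂ : P₂ ∈ S) (hJ₀ : J₀ ∈ S)
    (hex : e * x₁ = x₁) (heK : e = P₂ + e * K) (hK : e * K ∈ idl J₀)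
    (hcov : cut μ T ∈ idl (cut (c ^ 2) (P₁ * star P₁)))
    {D : Submodule ℂ B} (hD : JPr S D) (hDx : D ≤ idl x₁)
    (halt : D ≤ idl (cut μ T) ∨ ¬ D ≤ idl J₀) :
    D ≤ idl (cut (c ^ 2) (P₁ * star P₁ + P₂ * star P₂)) := by
  set Q := idl (cut (c ^ 2) (P₁ * star P₁ + P₂ * star P₂)) with hQ
  have hQi : IsIdl Q := isIdl_idl _
  have h1 : idl (cut (c ^ 2) (P₁ * star P₁)) ≤ Q := idl_le hQi
    (cut_mem_of_le (mul_star_self_nonneg _) (add_nonneg (mul_star_self_nonneg _)
      (mul_star_self_nonneg _)) (le_add_of_nonneg_right (mul_star_self_nonneg _)) _)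
  have h2 : idl (cut (c ^ 2) (P₂ * star P₂)) ≤ Q := idl_le hQi
    (cut_mem_of_le (mul_star_self_nonneg _) (add_nonneg (mul_star_self_nonneg _)
      (mul_star_self_nonneg _)) (le_add_of_nonneg_left (mul_star_self_nonneg _)) _)
  rcases halt with h | h
  · exact h.trans ((idl_le (isIdl_idl _) hcov).trans h1)
  · have hQS : Q ≤ S := idl_le hS (cut_mem hS (add_nonneg (mul_star_self_nonneg _)
      (mul_star_self_nonneg _)) (S.add_mem ((hS.2 _ _ hP₁).2) ((hS.2 _ _ hP₂).2))
      (by positivity))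
    have hJS : idl J₀ ≤ S := idl_le hS hJ₀
    obtain ⟨q, hq, hqn⟩ := exists_split' P₂ (μ := c ^ 2) (by positivity)
    have hn : ‖P₂ - q‖ < 1 := by
      by_contra hcon
      rw [not_lt] at hcon
      nlinarith
    have hes : e = (q + e * K) + (P₂ - q) := by
      calc e = P₂ + e * K := heK
        _ = _ := by abel
    have h3 : x₁ ∈ (Q ⊔ idl J₀).topologicalClosure := by
      refine mem_of_dist (isIdl_sup hQi (isIdl_idl J₀)) hes ?_ hn hex
      exact Submodule.le_topologicalClosure _ (Submodule.mem_sup.2 ⟨q, h2 hq, e * K, hK, rfl⟩)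
    have h4 : D ≤ (Q ⊔ idl J₀).topologicalClosure :=
      hDx.trans (idl_le (isIdl_sup hQi (isIdl_idl J₀)) h3)
    exact (hD.prime Q (idl J₀) hQi (isIdl_idl J₀) hQS hJS h4).resolve_right h

/-- the copies at level `μ` -/
theorem exists_copies {S : Submodule ℂ B} (hS : IsIdl S) (hPI : ∀ G ∈ S, 0 ≤ G → PIat G)
    {T : B} (hT0 : 0 ≤ T) (hTS : T ∈ S) {μ : ℝ} (hμ : 0 < μ) :
    ∃ L : ℝ, 0 < L ∧ ∀ η : ℝ, 0 < η → ∃ (κ : ℝ → ℝ) (z₁ z₂ : B), Continuous κ ∧
      (∀ t, t ≤ μ / 2 → κ t = 0) ∧ ‖cfc κ T * z₁‖ ≤ L ∧ ‖cfc κ T * z₂‖ ≤ L ∧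
      cfc κ T * T * cfc κ T = cut (μ / 2) T ∧
      ‖star z₁ * cut (μ / 2) T * z₁ - cut (μ / 2) T‖ < μ / 8 ∧
      ‖star z₂ * cut (μ / 2) T * z₂ - cut (μ / 2) T‖ < μ / 8 ∧
      ‖star z₁ * cut (μ / 2) T * z₂‖ ≤ η := by
  set R : B := cut (μ / 2) T with hR
  have hR0 : 0 ≤ R := cut_nonneg _ _
  have hRS : R ∈ S := cut_mem hS hT0 hTS (by positivity)
  set L : ℝ := 2 / μ * (‖R‖ + 1) + 1 with hL
  have hL0 : 0 < L := by positivity
  refine ⟨L, hL0, fun η hη => ?_⟩
  set ε : ℝ := min 1 (min (μ / 8) η) with hε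
  have hε0 : 0 < ε := lt_min one_pos (lt_min (by positivity) hη)
  have hε1 : ε ≤ 1 := min_le_left _ _
  have hε2 : ε ≤ μ / 8 := (min_le_right _ _).trans (min_le_left _ _)
  have hε3 : ε ≤ η := (min_le_right _ _).trans (min_le_right _ _)
  obtain ⟨z₁, z₂, h11, h22, h12⟩ := hPI R hRS hR0 ε hε0
  set κ : ℝ → ℝ := fun t => Real.sqrt (max (t - μ / 2) 0 * (max t (μ / 2))⁻¹) with hκ
  have hm0 : ∀ t : ℝ, 0 < max t (μ / 2) := fun t =>
    lt_of_lt_of_le (by positivity) (le_max_right _ _)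
  have hκc : Continuous κ := by
    refine Real.continuous_sqrt.comp (Continuous.mul (by fun_prop) ?_)
    exact Continuous.inv₀ (by fun_prop) (fun t => (hm0 t).ne')
  have hκκ : ∀ t, κ t * κ t = max (t - μ / 2) 0 * (max t (μ / 2))⁻¹ := fun t =>
    Real.mul_self_sqrt (mul_nonneg (le_max_right _ _) (inv_nonneg.2 (hm0 t).le))
  set k : B := cfc κ T with hk
  have hks : star k = k := star_cfc _ _
  have hkTk : k * T * k = R := by
    rw [hR, cut]
    rw [F_mul hT0 (f := fun t => κ t * t) (g := κ) (hκc.mul continuous_id') hκc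
      (h := fun t : ℝ => max (t - μ / 2) 0), F_mulX hT0 hκc (h := fun t => κ t * t)
      (fun t _ => rfl)]
    intro t ht
    have h1 : κ t * t * κ t = (κ t * κ t) * t := by ring
    show max (t - μ / 2) 0 = κ t * t * κ t
    rw [h1, hκκ]
    rcases le_or_gt t (μ / 2) with h | h
    · rw [max_eq_right (show t - μ / 2 ≤ 0 by linarith)]
      ring
    · rw [max_eq_left h.le, mul_assoc, inv_mul_cancel₀ (by linarith), mul_one]
  have hkk : k * k ≤ (2 / μ) • R := by
    rw [hR, cut, ← cfc_const_mul (2 / μ) _ T (by fun_prop), hk,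
      ← F_mul hT0 hκc hκc (h := fun t => κ t * κ t) (fun t _ => rfl)]
    refine F_mono hT0 (hκc.mul hκc) (by fun_prop) fun t ht => ?_
    show κ t * κ t ≤ 2 / μ * max (t - μ / 2) 0
    rw [hκκ, mul_comm]
    refine mul_le_mul_of_nonneg_right ?_ (le_max_right _ _)
    have h1 : (max t (μ / 2))⁻¹ ≤ (μ / 2)⁻¹ := inv_anti₀ (by positivity) (le_max_right _ _)
    rwa [inv_div] at h1
  have hζ : ∀ z : B, ‖star z * R * z - R‖ < ε → ‖k * z‖ ≤ L := by
    intro z hz
    have h1 : ‖k * z‖ ^ 2 ≤ 2 / μ * (‖R‖ + 1) := by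
      rw [norm_sq_eq]
      have h2 : star (k * z) * (k * z) = star z * (k * k) * z := by
        simp only [star_mul, hks, mul_assoc]
      have h3 : star z * (k * k) * z ≤ (2 / μ) • (star z * R * z) := by
        have := conj_le hkk z
        rwa [mul_smul_comm, smul_mul_assoc] at this
      rw [h2]
      have h4 : 0 ≤ star z * (k * k) * z := by
        rw [← h2]; exact star_mul_self_nonneg _
      refine (CStarAlgebra.norm_le_norm_of_nonneg_of_le h4 h3).trans ?_
      rw [norm_smul, Real.norm_eq_abs, abs_of_pos (by positivity)]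
      have h5 : ‖star z * R * z‖ ≤ ‖R‖ + 1 := by
        have h6 : star z * R * z = R + (star z * R * z - R) := by abel
        rw [h6]
        exact (norm_add_le _ _).trans (by linarith)
      gcongr
    refine le_of_sq_le_sq ?_ hL0.le
    nlinarith [h1, mul_nonneg (show (0:ℝ) ≤ 2 / μ by positivity)
      (show (0:ℝ) ≤ ‖R‖ + 1 by positivity)]
  refine ⟨κ, z₁, z₂, hκc, fun t ht => ?_, hζ z₁ h11, hζ z₂ h22, hkTk, h11.trans_le hε2,
    h22.trans_le hε2, h12.le.trans hε3⟩
  show Real.sqrt (max (t - μ / 2) 0 * (max t (μ / 2))⁻¹) = 0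
  rw [max_eq_right (show t - μ / 2 ≤ 0 by linarith), zero_mul, Real.sqrt_zero]

theorem goodCD {S : Submodule ℂ B} (hS : IsIdl S) (hPI : ∀ G ∈ S, 0 ≤ G → PIat G)
    {e e' x₁ y₁ : B} (he : star e = e) (he' : star e' = e') (heS : e ∈ S) (heS' : e' ∈ S)
    (hen : ‖e‖ ≤ 1) (hen' : ‖e'‖ ≤ 1) (hex : e * x₁ = x₁) (hey : e' * y₁ = y₁)
    (s : Finset {D : Submodule ℂ B // JPr S D ∧ D ≤ idl x₁})
    (s' : Finset {D : Submodule ℂ B // JPr S D ∧ D ≤ idl y₁}) :
    ∃ c : ℝ, 0 < c ∧ ∀ η : ℝ, 0 < η → ∃ C₁ C₂ B₁ B₂ : B,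
      (‖star (e * C₁) * (e' * B₁)‖ ≤ η ∧ ‖star (e * C₁) * (e' * B₂)‖ ≤ η ∧
        ‖star (e * C₂) * (e' * B₁)‖ ≤ η ∧ ‖star (e * C₂) * (e' * B₂)‖ ≤ η) ∧
      (∀ i ∈ s, (i : Submodule ℂ B) ≤
        idl (cut (c ^ 2) (e * C₁ * star (e * C₁) + e * C₂ * star (e * C₂)))) ∧
      ∀ i ∈ s', (i : Submodule ℂ B) ≤
        idl (cut (c ^ 2) (e' * B₁ * star (e' * B₁) + e' * B₂ * star (e' * B₂))) := by
  set a : B := e' * e with ha
  set T : B := star a * a with hT
  have hT0 : 0 ≤ T := star_mul_self_nonneg _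
  have haS : a ∈ S := (hS.2 e' e heS).1
  have hTS : T ∈ S := (hS.2 _ _ haS).1
  have hsa : star a = e * e' := by rw [ha, star_mul, he, he']
  have hTe : T = e * e' * e' * e := by
    rw [hT, hsa, ha]; simp only [mul_assoc]
  obtain ⟨μ₁, hμ₁, hl₁⟩ := exists_level hT0 s
  obtain ⟨μ₂, hμ₂, hl₂⟩ := exists_level hT0 s'
  set μ : ℝ := min μ₁ μ₂ with hμd
  have hμ : 0 < μ := lt_min hμ₁ hμ₂
  obtain ⟨L, hL0, hcop⟩ := exists_copies hS hPI hT0 hTS hμ
  set c : ℝ := min (1 / 2) (μ / (8 * L)) with hcd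
  have hc : 0 < c := lt_min (by norm_num) (by positivity)
  have hc2 : c ≤ 1 / 2 := min_le_left _ _
  have hLL : L * (2 * c) + μ / 8 < μ / 2 := by
    have h1 : L * (2 * c) ≤ L * (2 * (μ / (8 * L))) := by
      have := min_le_right (1 / 2 : ℝ) (μ / (8 * L))
      gcongr
    have h2 : L * (2 * (μ / (8 * L))) = μ / 4 := by field_simp; ring
    linarith
  refine ⟨c, hc, fun η hη => ?_⟩
  obtain ⟨κ, z₁, z₂, hκc, hκ0, hn1, hn2, hkTk, h11, h22, h12⟩ := hcop η hη
  set k : B := cfc κ T with hk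
  have hks : star k = k := star_cfc _ _
  set μ' : ℝ := min (μ / 8) (η ^ 2 / 2) with hμ'd
  have hμ' : 0 < μ' := lt_min (by positivity) (by positivity)
  have hμ'1 : μ' ≤ μ / 8 := min_le_left _ _
  have hμ'2 : μ' ≤ η ^ 2 / 2 := min_le_right _ _
  obtain ⟨K, K', hK, hK', hKm, hKm', hKn, hK1, hKK, hKκ⟩ := exists_split2 a hμ'
  obtain ⟨hkK, hKTk⟩ := hKκ κ hκc (fun t ht => hκ0 t (by linarith))
  rw [← hT, ← hk] at hkK hKTk
  have hzz : ∀ z z' : B, star (k * z) * e * e' * e' * e * (k * z') =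
      star z * cut (μ / 2) T * z' := by
    intro z z'
    have e1 : star z * cut (μ / 2) T * z' = star z * (k * (e * e' * e' * e) * k) * z' := by
      rw [← hTe, hkTk]
    rw [e1]
    simp only [star_mul, hks, mul_assoc]
  have hJS : cut μ' T ∈ S := cut_mem hS hT0 hTS hμ'.le
  have hJi := isIdl_idl (cut μ' T)
  have hU1 : ‖star (k * z₁) * e * e' * e'‖ ≤ L := by
    calc ‖star (k * z₁) * e * e' * e'‖ ≤ ‖star (k * z₁)‖ * ‖e‖ * ‖e'‖ * ‖e'‖ := by
          refine (norm_mul_le _ _).trans ?_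
          gcongr
          refine (norm_mul_le _ _).trans ?_
          gcongr
          exact norm_mul_le _ _
      _ ≤ L * 1 * 1 * 1 := by
          rw [norm_star]
          gcongr
      _ = L := by ring
  have hU2 : ‖star (k * z₂) * e‖ ≤ L := by
    calc ‖star (k * z₂) * e‖ ≤ ‖star (k * z₂)‖ * ‖e‖ := norm_mul_le _ _
      _ ≤ L * 1 := by
          rw [norm_star]
          gcongr
      _ = L := by ring
  refine ⟨k * z₁, 1 - K, e' * e * (k * z₂), 1 - K', ⟨?_, ?_, ?_, ?_⟩, ?_, ?_⟩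
  · have h1 : star (e * (k * z₁)) * (e' * (e' * e * (k * z₂))) =
        star z₁ * cut (μ / 2) T * z₂ := by
      rw [← hzz]
      simp only [star_mul, he, mul_assoc]
    rw [h1]
    exact h12
  · have h1 : star (e * (k * z₁)) * (e' * (1 - K')) = star z₁ * (k * (1 - K)) * star a := by
      calc star (e * (k * z₁)) * (e' * (1 - K'))
          = star z₁ * k * (star a - star a * K') := by
            rw [hsa]; simp only [star_mul, he, hks, mul_assoc, mul_sub, mul_one]
        _ = star z₁ * (k * (1 - K)) * star a := by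
            rw [hKK]; noncomm_ring
    rw [h1, hkK, mul_zero, zero_mul, norm_zero]
    exact hη.le
  · have h1 : star (e * (1 - K)) * (e' * (e' * e * (k * z₂))) = (1 - K) * T * k * z₂ := by
      rw [hTe]
      simp only [star_mul, star_sub, star_one, he, hK, mul_assoc]
    rw [h1, hKTk, zero_mul, norm_zero]
    exact hη.le
  · have h1 : star (e * (1 - K)) * (e' * (1 - K')) = star (a * (1 - K) * (1 - K)) := by
      calc star (e * (1 - K)) * (e' * (1 - K'))
          = (1 - K) * (star a - star a * K') := by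
            rw [hsa]; simp only [star_mul, star_sub, star_one, he, hK, mul_assoc, mul_sub,
              sub_mul, mul_one, one_mul]
        _ = star (a * (1 - K) * (1 - K)) := by
            rw [hKK]
            simp only [star_mul, star_sub, star_one, hK]
            noncomm_ring
    rw [h1, norm_star]
    have h2 : ‖a * (1 - K)‖ ≤ η := by
      refine le_of_sq_le_sq ?_ hη.le
      linarith
    calc ‖a * (1 - K) * (1 - K)‖ ≤ ‖a * (1 - K)‖ * ‖1 - K‖ := norm_mul_le _ _
      _ ≤ η * 1 := by gcongr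
      _ = η := mul_one η
  · intro i hi
    refine cover_row hS (K := K) (J₀ := cut μ' T) (μ := μ) (T := T) hc hc2
      ((hS.2 _ e heS).2) ((hS.2 _ e heS).2) hJS hex (by noncomm_ring) ((hJi.2 e K hKm).1) ?_
      i.2.1 i.2.2 ?_
    · refine cover hT0 rfl hμ hc h11 (U := star (k * z₁) * e * e' * e') ?_ hU1 hLL
      rw [← hzz]
      simp only [mul_assoc]
    · rcases hl₁ i hi μ hμ (min_le_left _ _) with h1 | h1
      · exact Or.inl h1
      · exact Or.inr (h1 μ' hμ')
  · intro i hi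
    refine cover_row hS (K := K') (J₀ := cut μ' T) (μ := μ) (T := T) hc hc2
      ((hS.2 _ e' heS').2) ((hS.2 _ e' heS').2) hJS hey (by noncomm_ring)
      ((hJi.2 e' K' hKm').1) ?_ i.2.1 i.2.2 ?_
    · refine cover hT0 rfl hμ hc h22 (U := star (k * z₂) * e) ?_ hU2 hLL
      rw [← hzz]
      simp only [mul_assoc]
    · rcases hl₂ i hi μ hμ (min_le_right _ _) with h1 | h1
      · exact Or.inl h1
      · exact Or.inr (h1 μ' hμ')

end Vale.Agent.P133
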