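import Vale.Agent.P133.Defs

/-!
# P133: lemmas in a unital C*-algebra
-/

open scoped ComplexOrder

namespace Vale.Agent.P133

universe u

variable {B : Type u} [CStarAlgebra B]

/-- Closed two-sided ideals of a unital C*-algebra. -/
def IsIdl (I : Submodule ℂ B) : Prop :=
  IsClosed (I : Set B) ∧ ∀ a : B, ∀ x ∈ I, a * x ∈ I ∧ x * a ∈ I

/-- The algebraic two-sided ideal generated by `G`. -/
noncomputable def sp (G : B) : Submodule ℂ B := Submodule.span ℂ {z | ∃ a b : B, z = a * G * b}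

/-- The closed two-sided ideal generated by `G`. -/
noncomputable def idl (G : B) : Submodule ℂ B := (sp G).topologicalClosure

theorem sp_mul (G a x : B) (hx : x ∈ sp G) : a * x ∈ sp G ∧ x * a ∈ sp G := by
  refine Submodule.span_induction (p := fun x _ => a * x ∈ sp G ∧ x * a ∈ sp G) ?_ ?_ ?_ ?_ hx
  · rintro x ⟨b, c, rfl⟩
    constructor
    · exact Submodule.subset_span ⟨a * b, c, by simp only [mul_assoc]⟩
    · exact Submodule.subset_span ⟨b, c * a, by simp only [mul_assoc]⟩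
  · simp
  · intro x y _ _ hx hy
    rw [mul_add, add_mul]
    exact ⟨(sp G).add_mem hx.1 hy.1, (sp G).add_mem hx.2 hy.2⟩
  · intro c x _ hx
    rw [mul_smul_comm, smul_mul_assoc]
    exact ⟨(sp G).smul_mem c hx.1, (sp G).smul_mem c hx.2⟩

theorem isIdl_idl (G : B) : IsIdl (idl G) := by
  refine ⟨(sp G).isClosed_topologicalClosure, fun a x hx => ⟨?_, ?_⟩⟩
  · exact map_mem_closure (f := fun y : B => a * y) (by fun_prop) hx
      (fun y hy => (sp_mul G a y hy).1)
  · exact map_mem_closure (f := fun y : B => y * a) (by fun_prop) hx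
      (fun y hy => (sp_mul G a y hy).2)

theorem self_mem_idl (G : B) : G ∈ idl G :=
  (sp G).le_topologicalClosure (Submodule.subset_span ⟨1, 1, by simp⟩)

theorem idl_le {G : B} {Q : Submodule ℂ B} (hQ : IsIdl Q) (hG : G ∈ Q) : idl G ≤ Q := by
  refine Submodule.topologicalClosure_minimal _ (Submodule.span_le.2 ?_) hQ.1
  rintro x ⟨a, b, rfl⟩
  exact (hQ.2 b _ ((hQ.2 a G hG).1)).2

/-- The distance trick. -/
theorem mem_of_dist {Q : Submodule ℂ B} (hQ : IsIdl Q) {d E q b : B} (hE : E = q + b)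
    (hq : q ∈ Q) (hb : ‖b‖ < 1) (hd : E * d = d) : d ∈ Q := by
  have key : ∀ n : ℕ, ∃ q' ∈ Q, d = b ^ n * d + q' := by
    intro n
    induction n with
    | zero => exact ⟨0, Q.zero_mem, by simp⟩
    | succ n ih =>
      obtain ⟨q', hq', h⟩ := ih
      refine ⟨q * d + b * q', Q.add_mem (hQ.2 d q hq).2 (hQ.2 b q' hq').1, ?_⟩
      calc d = E * d := hd.symm
        _ = q * d + b * d := by rw [hE, add_mul]
        _ = q * d + b * (b ^ n * d + q') := by rw [← h]
        _ = b ^ (n + 1) * d + (q * d + b * q') := by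
          rw [pow_succ', mul_add, mul_assoc]; abel
  have hcl : d ∈ closure (Q : Set B) := by
    rw [Metric.mem_closure_iff]
    intro ε hε
    have hlim : Filter.Tendsto (fun n : ℕ => ‖b‖ ^ n * ‖d‖) Filter.atTop (nhds 0) := by
      simpa using (tendsto_pow_atTop_nhds_zero_of_lt_one (norm_nonneg b) hb).mul_const ‖d‖
    obtain ⟨n, hn0, hn⟩ := ((Filter.eventually_gt_atTop 0).and (hlim.eventually (gt_mem_nhds hε))).exists
    obtain ⟨q', hq', h⟩ := key n
    refine ⟨q', hq', ?_⟩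
    rw [dist_eq_norm]
    have : d - q' = b ^ n * d := by
      nth_rw 1 [h]; abel
    rw [this]
    calc ‖b ^ n * d‖ ≤ ‖b ^ n‖ * ‖d‖ := norm_mul_le _ _
      _ ≤ ‖b‖ ^ n * ‖d‖ := by
        gcongr
        exact norm_pow_le' b hn0
      _ < ε := hn
  rwa [hQ.1.closure_eq] at hcl

section ord

variable [PartialOrder B] [StarOrderedRing B]

/-- `(X - c)_+`. -/
noncomputable def cut (c : ℝ) (X : B) : B := cfc (fun t : ℝ => max (t - c) 0) X

theorem cut_nonneg (c : ℝ) (X : B) : 0 ≤ cut c X :=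
  cfc_nonneg (fun _ _ => le_max_right _ _)

theorem star_cfc (f : ℝ → ℝ) (X : B) : star (cfc f X) = cfc f X :=
  (cfc_predicate f X : IsSelfAdjoint _)

theorem mem_spec {X : B} (hX : 0 ≤ X) {t : ℝ} (ht : t ∈ spectrum ℝ X) : 0 ≤ t :=
  spectrum_nonneg_of_nonneg hX ht

theorem F_mul {X : B} (hX : 0 ≤ X) {f g h : ℝ → ℝ} (hf : Continuous f) (hg : Continuous g)
    (hfg : ∀ t, 0 ≤ t → h t = f t * g t) : cfc h X = cfc f X * cfc g X := by
  rw [← cfc_mul f g X hf.continuousOn hg.continuousOn]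
  exact cfc_congr fun t ht => hfg t (mem_spec hX ht)

theorem F_mulX {X : B} (hX : 0 ≤ X) {f h : ℝ → ℝ} (hf : Continuous f)
    (hfg : ∀ t, 0 ≤ t → h t = f t * t) : cfc h X = cfc f X * X := by
  have h1 : cfc (fun t : ℝ => t) X = X := cfc_id' ℝ X (IsSelfAdjoint.of_nonneg hX)
  have h2 := F_mul hX hf continuous_id' hfg
  rwa [h1] at h2

theorem F_Xmul {X : B} (hX : 0 ≤ X) {f h : ℝ → ℝ} (hf : Continuous f)
    (hfg : ∀ t, 0 ≤ t → h t = t * f t) : cfc h X = X * cfc f X := by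
  have h1 : cfc (fun t : ℝ => t) X = X := cfc_id' ℝ X (IsSelfAdjoint.of_nonneg hX)
  have h2 := F_mul hX continuous_id' hf hfg
  rwa [h1] at h2

theorem norm_F_le {X : B} (hX : 0 ≤ X) {f : ℝ → ℝ} {c : ℝ} (hc : 0 ≤ c)
    (h : ∀ t, 0 ≤ t → |f t| ≤ c) : ‖cfc f X‖ ≤ c :=
  norm_cfc_le hc fun t ht => by
    rw [Real.norm_eq_abs]
    exact h t (mem_spec hX ht)

theorem F_mono {X : B} (hX : 0 ≤ X) {f g : ℝ → ℝ} (hf : Continuous f) (hg : Continuous g)
    (h : ∀ t, 0 ≤ t → f t ≤ g t) : cfc f X ≤ cfc g X :=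
  cfc_mono (fun t ht => h t (mem_spec hX ht)) hf.continuousOn hg.continuousOn

theorem norm_sq_eq (a : B) : ‖a‖ ^ 2 = ‖star a * a‖ := by
  rw [CStarRing.norm_star_mul_self, sq]

/-- If `(T - ν)_+` is within `β` of `Q`, then `(T - (ν + β))_+` is in `Q`. -/
theorem cut_mem_of_dist {Q : Submodule ℂ B} (hQ : IsIdl Q) {T q b : B} (hT : 0 ≤ T) {ν β : ℝ}
    (hβ : 0 < β) (h : cut ν T = q + b) (hq : q ∈ Q) (hb : ‖b‖ < β) : cut (ν + β) T ∈ Q := by
  have hpsi : Continuous fun t : ℝ => (max (t - ν) β)⁻¹ :=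
    Continuous.inv₀ (by fun_prop) (fun t => (lt_of_lt_of_le hβ (le_max_right _ _)).ne')
  set P : B := cfc (fun t : ℝ => (max (t - ν) β)⁻¹) T with hP
  have hPn : ‖P‖ ≤ β⁻¹ := by
    refine norm_F_le hT (inv_nonneg.2 hβ.le) fun t _ => ?_
    have h1 : β ≤ max (t - ν) β := le_max_right _ _
    rw [abs_of_pos (inv_pos.2 (lt_of_lt_of_le hβ h1))]
    exact inv_anti₀ hβ h1
  refine mem_of_dist hQ (E := P * cut ν T) (q := P * q) (b := P * b) (by rw [h, mul_add])
    (hQ.2 P q hq).1 ?_ ?_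
  · calc ‖P * b‖ ≤ ‖P‖ * ‖b‖ := norm_mul_le _ _
      _ ≤ β⁻¹ * ‖b‖ := by gcongr
      _ < β⁻¹ * β := by
        have := inv_pos.2 hβ
        gcongr
      _ = 1 := inv_mul_cancel₀ hβ.ne'
  · have h1 : cfc (fun t : ℝ => (max (t - ν) β)⁻¹ * max (t - ν) 0) T = P * cut ν T :=
      F_mul hT hpsi (by fun_prop) (fun t _ => rfl)
    rw [← h1]
    symm
    refine F_mul hT (hpsi.mul (by fun_prop)) (by fun_prop) fun t _ => ?_
    rcases le_or_gt t (ν + β) with ht | ht
    · have : max (t - (ν + β)) 0 = 0 := max_eq_right (by linarith)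
      simp [this]
    · have h3 : max (t - ν) β = t - ν := max_eq_left (by linarith)
      have h4 : max (t - ν) 0 = t - ν := max_eq_left (by linarith)
      have h5 : t - ν ≠ 0 := by linarith
      show max (t - (ν + β)) 0 = (max (t - ν) β)⁻¹ * max (t - ν) 0 * max (t - (ν + β)) 0
      rw [h3, h4, inv_mul_cancel₀ h5, one_mul]

theorem cut_mono_mem {Q : Submodule ℂ B} (hQ : IsIdl Q) {T : B} (hT : 0 ≤ T) {μ₀ μ : ℝ}
    (h : μ₀ ≤ μ) (h0 : cut μ₀ T ∈ Q) : cut μ T ∈ Q := by
  rcases h.eq_or_lt with rfl | h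
  · exact h0
  · have h1 := cut_mem_of_dist hQ hT (ν := μ₀) (β := μ - μ₀) (by linarith)
      (add_zero (cut μ₀ T)).symm h0 (by rw [norm_zero]; linarith)
    rwa [add_sub_cancel] at h1

theorem cut_zero {T : B} (hT : 0 ≤ T) : cut 0 T = T := by
  have h1 : cfc (fun t : ℝ => t) T = T := cfc_id' ℝ T (IsSelfAdjoint.of_nonneg hT)
  conv_rhs => rw [← h1]
  exact cfc_congr fun t ht => by
    have := mem_spec hT ht
    simp [this]

/-- Splitting off the part of `a` that lies in the ideal of `(a* a - μ)_+`. -/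
theorem exists_split (a : B) {μ : ℝ} (hμ : 0 < μ) : ∃ K : B, star K = K ∧
    K ∈ idl (cut μ (star a * a)) ∧ ‖a * (1 - K)‖ ^ 2 ≤ 2 * μ := by
  set X : B := star a * a with hX
  have hX0 : 0 ≤ X := star_mul_self_nonneg a
  have hc1 : Continuous fun t : ℝ => (max (t - μ) μ)⁻¹ :=
    Continuous.inv₀ (by fun_prop) (fun t => (lt_of_lt_of_le hμ (le_max_right _ _)).ne')
  set k : ℝ → ℝ := fun t => (max (t - μ) μ)⁻¹ * max (t - μ) 0 with hk
  have hkc : Continuous k := hc1.mul (by fun_prop)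
  have hk1 : ∀ t, k t ≤ 1 := by
    intro t
    have h1 : 0 < max (t - μ) μ := lt_of_lt_of_le hμ (le_max_right _ _)
    rw [hk]
    show (max (t - μ) μ)⁻¹ * max (t - μ) 0 ≤ 1
    rw [inv_mul_le_iff₀ h1, mul_one]
    exact max_le_max_left _ hμ.le
  have hk0 : ∀ t, 0 ≤ k t := by
    intro t
    have h1 : 0 < max (t - μ) μ := lt_of_lt_of_le hμ (le_max_right _ _)
    exact mul_nonneg (inv_nonneg.2 h1.le) (le_max_right _ _)
  refine ⟨cfc k X, star_cfc _ _, ?_, ?_⟩
  · rw [F_mul hX0 hc1 (g := fun t : ℝ => max (t - μ) 0) (by fun_prop) (h := k) (fun t _ => rfl)]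
    exact ((isIdl_idl _).2 _ _ (self_mem_idl _)).1
  · have h1 : (1 : B) - cfc k X = cfc (fun t => 1 - k t) X := by
      rw [cfc_sub (fun _ => 1) k X (by fun_prop) hkc.continuousOn, cfc_const_one ℝ X]
    rw [norm_sq_eq, star_mul, h1, star_cfc]
    have h2 : cfc (fun t => 1 - k t) X * star a * (a * cfc (fun t => 1 - k t) X)
        = cfc (fun t => (1 - k t) * t * (1 - k t)) X := by
      rw [F_mul hX0 (f := fun t => (1 - k t) * t) (g := fun t => 1 - k t)
        ((continuous_const.sub hkc).mul continuous_id') (continuous_const.sub hkc)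
        (h := fun t => (1 - k t) * t * (1 - k t)) (fun t _ => rfl),
        F_mulX hX0 (f := fun t => 1 - k t) (continuous_const.sub hkc)
        (h := fun t => (1 - k t) * t) (fun t _ => rfl), hX]
      simp only [mul_assoc]
    rw [h2]
    refine norm_F_le hX0 (by positivity) fun t ht => ?_
    have h3 := hk0 t
    have h4 := hk1 t
    rw [abs_of_nonneg (by have : 0 ≤ 1 - k t := by linarith
                          positivity)]
    rcases le_or_gt t (2 * μ) with h5 | h5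
    · nlinarith [mul_le_one₀ (show 1 - k t ≤ 1 by linarith) (show 0 ≤ 1 - k t by linarith)
        (show 1 - k t ≤ 1 by linarith)]
    · have h6 : k t = 1 := by
        rw [hk]
        show (max (t - μ) μ)⁻¹ * max (t - μ) 0 = 1
        rw [max_eq_left (show μ ≤ t - μ by linarith), max_eq_left (show 0 ≤ t - μ by linarith)]
        exact inv_mul_cancel₀ (by linarith)
      rw [h6]
      simp
      positivity

end ord

end Vale.Agent.P133
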