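import Mathlib

/-!
# P133: purely infinite C*-algebras, definitions

Everything is stated for an arbitrary (possibly nonunital) C*-algebra `A`.
-/

namespace Vale.Agent.P133

universe u

/-- `x` is a positive element of the C*-algebra `A`. -/
def IsPos {A : Type u} [NonUnitalCStarAlgebra A] (x : A) : Prop := ∃ y : A, x = star y * y

/-- `I` is a closed two-sided ideal of the C*-algebra `A`. -/
def IsClosedIdeal {A : Type u} [NonUnitalCStarAlgebra A] (I : Submodule ℂ A) : Prop :=
  IsClosed (I : Set A) ∧ ∀ a : A, ∀ x ∈ I, a * x ∈ I ∧ x * a ∈ I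

/-- The closed two-sided ideals of `A` are totally ordered by inclusion. -/
def TotallyOrderedIdeals (A : Type u) [NonUnitalCStarAlgebra A] : Prop :=
  ∀ I J : Submodule ℂ A, IsClosedIdeal I → IsClosedIdeal J → I ≤ J ∨ J ≤ I

/-- Cuntz comparison `a ≾ b` of square matrices over `A`: there are rectangular matrices `x` over
`A` for which `x* b x` is as close to `a` as we like. -/
def CuntzLE {A : Type u} [NonUnitalCStarAlgebra A] {m n : Type} [Fintype m] [Fintype n]
    (a : Matrix m m A) (b : Matrix n n A) : Prop :=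
  ∀ ε : ℝ, 0 < ε → ∃ x : Matrix n m A, ∀ i j, ‖(x.conjTranspose * b * x - a) i j‖ < ε

/-- The `n`-fold diagonal amplification of `h` is properly infinite:
`diag(h, ..., h) ⊕ diag(h, ..., h) ≾ diag(h, ..., h)`. -/
def AmplPI {A : Type u} [NonUnitalCStarAlgebra A] (n : ℕ) (h : A) : Prop :=
  CuntzLE (Matrix.diagonal fun _ : Fin n ⊕ Fin n => h) (Matrix.diagonal fun _ : Fin n => h)

/-- `A` is purely infinite: every positive element is properly infinite. -/
def PurelyInfinite (A : Type u) [NonUnitalCStarAlgebra A] : Prop :=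
  ∀ h : A, IsPos h → AmplPI 1 h

/-- `A` is weakly purely infinite. -/
def WeaklyPurelyInfinite (A : Type u) [NonUnitalCStarAlgebra A] : Prop :=
  ∃ n : ℕ, 1 ≤ n ∧ ∀ h : A, IsPos h → AmplPI n h

/-- `A` is strongly purely infinite. -/
def StronglyPurelyInfinite (A : Type u) [NonUnitalCStarAlgebra A] : Prop :=
  ∀ x y : A, IsPos x → IsPos y → ∀ ε : ℝ, 0 < ε → ∃ s t : A,
    ‖star s * (x * x) * s - x * x‖ < ε ∧ ‖star t * (y * y) * t - y * y‖ < ε ∧
      ‖star s * (x * y) * t‖ < ε

end Vale.Agent.P133
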