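import Vale.Agent.P133.CDFinal

/-!
# P133: finite tests
-/

open scoped ComplexOrder

namespace Vale.Agent.P133

universe u

section ord

variable {B : Type u} [CStarAlgebra B] [PartialOrder B] [StarOrderedRing B]

/-- finite tests for the size of closed ideals inside `S` -/
def FTr (S : Submodule ℂ B) : Prop :=
  ∀ h ∈ S, 0 ≤ h → ∀ ε : ℝ, 0 < ε → ∃ (m : ℕ) (M : Fin m → Submodule ℂ B),
    (∀ j, IsIdl (M j) ∧ h ∉ M j) ∧
      ∀ I : Submodule ℂ B, IsIdl I → I ≤ S → (∀ x ∈ I, ε ≤ ‖h - x‖) → ∃ j, I ≤ M j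

/-- an ideal which passes all tests contains the cut down element -/
theorem cut_mem_of_tests {S : Submodule ℂ B} {h : B} (hh : 0 ≤ h) {ε : ℝ} (hε : 0 < ε) {m : ℕ}
    {M : Fin m → Submodule ℂ B}
    (hM : ∀ I : Submodule ℂ B, IsIdl I → I ≤ S → (∀ x ∈ I, ε ≤ ‖h - x‖) → ∃ j, I ≤ M j)
    {L : Submodule ℂ B} (hL : IsIdl L) (hLS : L ≤ S) (ht : ∀ j, ¬ L ≤ M j) : cut ε h ∈ L := by
  by_cases hd : ∀ x ∈ L, ε ≤ ‖h - x‖
  · obtain ⟨j, hj⟩ := hM L hL hLS hd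
    exact absurd hj (ht j)
  · push Not at hd
    obtain ⟨q, hq, hqn⟩ := hd
    have h3 := cut_mem_of_dist hL hh (ν := 0) (β := ε) hε (q := q) (b := h - q)
      (by rw [cut_zero hh]; abel) hq hqn
    rwa [zero_add] at h3

/-- choice of the level -/
theorem exists_levelF {T : B} (hT : 0 ≤ T) {m : ℕ} (M : Fin m → Submodule ℂ B)
    (hM : ∀ j, IsIdl (M j)) :
    ∃ μ : ℝ, 0 < μ ∧ ∀ j, ∀ μ' : ℝ, 0 < μ' → μ' ≤ μ → cut μ' T ∉ M j ∨ T ∈ M j := by
  have h1 : ∀ j, ∃ ν : ℝ, 0 < ν ∧ (cut ν T ∉ M j ∨ T ∈ M j) := by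
    intro j
    by_cases hT' : T ∈ M j
    · exact ⟨1, one_pos, Or.inr hT'⟩
    · by_contra hcon
      push Not at hcon
      refine hT' ?_
      have hcl : T ∈ closure (M j : Set B) := by
        rw [Metric.mem_closure_iff]
        intro ε hε
        refine ⟨cut (ε / 2) T, ?_, ?_⟩
        · exact (hcon (ε / 2) (by positivity)).1
        · rw [dist_eq_norm]
          exact (norm_sub_cut hT (by positivity)).trans_lt (by linarith)
      rwa [(hM j).1.closure_eq] at hcl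
  choose ν hν hνj using h1
  obtain ⟨μ, hμ, hle⟩ : ∃ μ : ℝ, 0 < μ ∧ ∀ j, μ ≤ ν j := by
    rcases isEmpty_or_nonempty (Fin m) with hem | hne
    · exact ⟨1, one_pos, fun j => (hem.false j).elim⟩
    · obtain ⟨j₀, hj₀⟩ := Finite.exists_min ν
      exact ⟨ν j₀, hν j₀, hj₀⟩
  refine ⟨μ, hμ, fun j μ' hμ' hm => ?_⟩
  rcases hνj j with h2 | h2
  · exact Or.inl fun h3 => h2 (cut_mono_mem (hM j) hT (hm.trans (hle j)) h3)
  · exact Or.inr h2

/-- a row passes a test -/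
theorem test_row {e x₁ K P₁ P₂ J₀ : B} {c μ : ℝ} {T : B}
    (hc : 0 < c) (hc2 : c ≤ 1 / 2)
    (hex : e * x₁ = x₁) (heK : e = P₂ + e * K) (hK : e * K ∈ idl J₀)
    (hcov : cut μ T ∈ idl (cut (c ^ 2) (P₁ * star P₁)))
    {M : Submodule ℂ B} (hM : IsIdl M) (hx₁ : x₁ ∉ M)
    (halt : cut μ T ∉ M ∨ J₀ ∈ M) :
    ¬ idl (cut (c ^ 2) (P₁ * star P₁ + P₂ * star P₂)) ≤ M := by
  intro hQM
  set Q := idl (cut (c ^ 2) (P₁ * star P₁ + P₂ * star P₂)) with hQ
  have hQi : IsIdl Q := isIdl_idl _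
  have h1 : idl (cut (c ^ 2) (P₁ * star P₁)) ≤ Q := idl_le hQi
    (cut_mem_of_le (mul_star_self_nonneg _) (add_nonneg (mul_star_self_nonneg _)
      (mul_star_self_nonneg _)) (le_add_of_nonneg_right (mul_star_self_nonneg _)) _)
  have h2 : idl (cut (c ^ 2) (P₂ * star P₂)) ≤ Q := idl_le hQi
    (cut_mem_of_le (mul_star_self_nonneg _) (add_nonneg (mul_star_self_nonneg _)
      (mul_star_self_nonneg _)) (le_add_of_nonneg_left (mul_star_self_nonneg _)) _)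
  rcases halt with h | h
  · exact h (hQM (h1 hcov))
  · obtain ⟨q, hq, hqn⟩ := exists_split' P₂ (μ := c ^ 2) (by positivity)
    have hn : ‖P₂ - q‖ < 1 := by
      by_contra hcon
      rw [not_lt] at hcon
      nlinarith
    have hes : e = (q + e * K) + (P₂ - q) := by
      calc e = P₂ + e * K := heK
        _ = _ := by abel
    exact hx₁ (mem_of_dist hM hes (M.add_mem (hQM (h2 hq)) (idl_le hM h hK)) hn hex)

theorem goodF {S : Submodule ℂ B} (hS : IsIdl S) (hPI : ∀ G ∈ S, 0 ≤ G → PIat G)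
    {e e' x₁ y₁ : B} (he : star e = e) (he' : star e' = e') (heS : e ∈ S)
    (hen : ‖e‖ ≤ 1) (hen' : ‖e'‖ ≤ 1) (hex : e * x₁ = x₁) (hey : e' * y₁ = y₁)
    {m m' : ℕ} (M : Fin m → Submodule ℂ B) (M' : Fin m' → Submodule ℂ B)
    (hM : ∀ j, IsIdl (M j) ∧ x₁ ∉ M j) (hM' : ∀ j, IsIdl (M' j) ∧ y₁ ∉ M' j) :
    ∃ c : ℝ, 0 < c ∧ ∀ η : ℝ, 0 < η → ∃ C₁ C₂ B₁ B₂ : B,
      (‖star (e * C₁) * (e' * B₁)‖ ≤ η ∧ ‖star (e * C₁) * (e' * B₂)‖ ≤ η ∧
        ‖star (e * C₂) * (e' * B₁)‖ ≤ η ∧ ‖star (e * C₂) * (e' * B₂)‖ ≤ η) ∧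
      (∀ j, ¬ idl (cut (c ^ 2) (e * C₁ * star (e * C₁) + e * C₂ * star (e * C₂))) ≤ M j) ∧
      ∀ j, ¬ idl (cut (c ^ 2) (e' * B₁ * star (e' * B₁) + e' * B₂ * star (e' * B₂))) ≤ M' j := by
  set a : B := e' * e with ha
  set T : B := star a * a with hT
  have hT0 : 0 ≤ T := star_mul_self_nonneg _
  have haS : a ∈ S := (hS.2 e' e heS).1
  have hTS : T ∈ S := (hS.2 _ _ haS).1
  have hsa : star a = e * e' := by rw [ha, star_mul, he, he']
  have hTe : T = e * e' * e' * e := by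
    rw [hT, hsa, ha]; simp only [mul_assoc]
  obtain ⟨μ₁, hμ₁, hl₁⟩ := exists_levelF hT0 M fun j => (hM j).1
  obtain ⟨μ₂, hμ₂, hl₂⟩ := exists_levelF hT0 M' fun j => (hM' j).1
  set μ : ℝ := min μ₁ μ₂ with hμd
  have hμ : 0 < μ := lt_min hμ₁ hμ₂
  obtain ⟨L, hL0, hcop⟩ := exists_copies hS hPI hT0 hTS hμ
  set c : ℝ := min (1 / 2) (μ / (8 * L)) with hcd
  have hc : 0 < c := lt_min (by norm_num) (by positivity)
  have hc2 : c ≤ 1 / 2 := min_le_left _ _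
  have hLL : L * (2 * c) + μ / 8 < μ / 2 := by
    have h1 : L * (2 * c) ≤ L * (2 * (μ / (8 * L))) := by
      have := min_le_right (1 / 2 : ℝ) (μ / (8 * L))
      gcongr
    have h2 : L * (2 * (μ / (8 * L))) = μ / 4 := by field_simp; ring
    linarith
  refine ⟨c, hc, fun η hη => ?_⟩
  obtain ⟨κ, z₁, z₂, hκc, hκ0, hn1, hn2, hkTk, h11, h22, h12⟩ := hcop η hη
  set k : B := cfc κ T with hk
  have hks : star k = k := star_cfc _ _
  set μ' : ℝ := min (μ / 8) (η ^ 2 / 2) with hμ'd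
  have hμ' : 0 < μ' := lt_min (by positivity) (by positivity)
  have hμ'1 : μ' ≤ μ / 8 := min_le_left _ _
  have hμ'2 : μ' ≤ η ^ 2 / 2 := min_le_right _ _
  obtain ⟨K, K', hK, hK', hKm, hKm', hKn, hK1, hKK, hKκ⟩ := exists_split2 a hμ'
  obtain ⟨hkK, hKTk⟩ := hKκ κ hκc (fun t ht => hκ0 t (by linarith))
  rw [← hT, ← hk] at hkK hKTk
  have hzz : ∀ z z' : B, star (k * z) * e * e' * e' * e * (k * z') =
      star z * cut (μ / 2) T * z' := by
    intro z z'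
    have e1 : star z * cut (μ / 2) T * z' = star z * (k * (e * e' * e' * e) * k) * z' := by
      rw [← hTe, hkTk]
    rw [e1]
    simp only [star_mul, hks, mul_assoc]
  have hJS : cut μ' T ∈ S := cut_mem hS hT0 hTS hμ'.le
  have hJi := isIdl_idl (cut μ' T)
  have hU1 : ‖star (k * z₁) * e * e' * e'‖ ≤ L := by
    calc ‖star (k * z₁) * e * e' * e'‖ ≤ ‖star (k * z₁)‖ * ‖e‖ * ‖e'‖ * ‖e'‖ := by
          refine (norm_mul_le _ _).trans ?_
          gcongr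
          refine (norm_mul_le _ _).trans ?_
          gcongr
          exact norm_mul_le _ _
      _ ≤ L * 1 * 1 * 1 := by
          rw [norm_star]
          gcongr
      _ = L := by ring
  have hU2 : ‖star (k * z₂) * e‖ ≤ L := by
    calc ‖star (k * z₂) * e‖ ≤ ‖star (k * z₂)‖ * ‖e‖ := norm_mul_le _ _
      _ ≤ L * 1 := by
          rw [norm_star]
          gcongr
      _ = L := by ring
  refine ⟨k * z₁, 1 - K, e' * e * (k * z₂), 1 - K', ⟨?_, ?_, ?_, ?_⟩, ?_, ?_⟩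
  · have h1 : star (e * (k * z₁)) * (e' * (e' * e * (k * z₂))) =
        star z₁ * cut (μ / 2) T * z₂ := by
      rw [← hzz]
      simp only [star_mul, he, mul_assoc]
    rw [h1]
    exact h12
  · have h1 : star (e * (k * z₁)) * (e' * (1 - K')) = star z₁ * (k * (1 - K)) * star a := by
      calc star (e * (k * z₁)) * (e' * (1 - K'))
          = star z₁ * k * (star a - star a * K') := by
            rw [hsa]; simp only [star_mul, he, hks, mul_assoc, mul_sub, mul_one]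
        _ = star z₁ * (k * (1 - K)) * star a := by
            rw [hKK]; noncomm_ring
    rw [h1, hkK, mul_zero, zero_mul, norm_zero]
    exact hη.le
  · have h1 : star (e * (1 - K)) * (e' * (e' * e * (k * z₂))) = (1 - K) * T * k * z₂ := by
      rw [hTe]
      simp only [star_mul, star_sub, star_one, he, hK, mul_assoc]
    rw [h1, hKTk, zero_mul, norm_zero]
    exact hη.le
  · have h1 : star (e * (1 - K)) * (e' * (1 - K')) = star (a * (1 - K) * (1 - K)) := by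
      calc star (e * (1 - K)) * (e' * (1 - K'))
          = (1 - K) * (star a - star a * K') := by
            rw [hsa]; simp only [star_mul, star_sub, star_one, he, hK, mul_assoc, mul_sub,
              sub_mul, mul_one, one_mul]
        _ = star (a * (1 - K) * (1 - K)) := by
            rw [hKK]
            simp only [star_mul, star_sub, star_one, hK]
            noncomm_ring
    rw [h1, norm_star]
    have h2 : ‖a * (1 - K)‖ ≤ η := by
      refine le_of_sq_le_sq ?_ hη.le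
      linarith
    calc ‖a * (1 - K) * (1 - K)‖ ≤ ‖a * (1 - K)‖ * ‖1 - K‖ := norm_mul_le _ _
      _ ≤ η * 1 := by gcongr
      _ = η := mul_one η
  · intro j
    refine test_row (K := K) (J₀ := cut μ' T) (μ := μ) (T := T) hc hc2
      hex (by noncomm_ring) ((hJi.2 e K hKm).1) ?_ (hM j).1 (hM j).2 ?_
    · refine cover hT0 rfl hμ hc h11 (U := star (k * z₁) * e * e' * e') ?_ hU1 hLL
      rw [← hzz]
      simp only [mul_assoc]
    · rcases hl₁ j μ hμ (min_le_left _ _) with h1 | h1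
      · exact Or.inl h1
      · exact Or.inr (cut_mem (hM j).1 hT0 h1 hμ'.le)
  · intro j
    refine test_row (K := K') (J₀ := cut μ' T) (μ := μ) (T := T) hc hc2
      hey (by noncomm_ring) ((hJi.2 e' K' hKm').1) ?_ (hM' j).1 (hM' j).2 ?_
    · refine cover hT0 rfl hμ hc h22 (U := star (k * z₂) * e) ?_ hU2 hLL
      rw [← hzz]
      simp only [mul_assoc]
    · rcases hl₂ j μ hμ (min_le_right _ _) with h1 | h1
      · exact Or.inl h1
      · exact Or.inr (cut_mem (hM' j).1 hT0 h1 hμ'.le)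

theorem coreF {S : Submodule ℂ B} (hS : IsIdl S) (hPI : ∀ G ∈ S, 0 ≤ G → PIat G)
    (hF : FTr S) {x y : B} (hx : 0 ≤ x) (hy : 0 ≤ y) (hxS : x ∈ S) (hyS : y ∈ S) {ε : ℝ}
    (hε : 0 < ε) :
    ∃ s ∈ S, ∃ t ∈ S, ‖star s * (x * x) * s - x * x‖ < ε ∧ ‖star t * (y * y) * t - y * y‖ < ε ∧
      ‖star s * (x * y) * t‖ < ε := by
  set ε₀ : ℝ := min 1 (ε / (4 * (‖x‖ + ‖y‖ + 1))) with hε₀
  have hε₀0 : 0 < ε₀ := lt_min one_pos (by positivity)
  have hbd : ∀ r : ℝ, 0 ≤ r → r ≤ ‖x‖ + ‖y‖ → ε₀ * (2 * r + 1) ≤ ε / 2 := by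
    intro r hr0 hr
    calc ε₀ * (2 * r + 1) ≤ (ε / (4 * (‖x‖ + ‖y‖ + 1))) * (2 * (‖x‖ + ‖y‖ + 1)) := by
          have h1 : ε₀ ≤ ε / (4 * (‖x‖ + ‖y‖ + 1)) := min_le_right _ _
          have h2 : 2 * r + 1 ≤ 2 * (‖x‖ + ‖y‖ + 1) := by linarith
          gcongr
      _ = ε / 2 := by field_simp; norm_num
  obtain ⟨m, N, hN, hNt⟩ := hF x hxS hx ε₀ hε₀0
  obtain ⟨m', N', hN', hNt'⟩ := hF y hyS hy ε₀ hε₀0
  obtain ⟨ρ, hρ, hρN⟩ := exists_levelF hx N fun j => (hN j).1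
  obtain ⟨ρ', hρ', hρN'⟩ := exists_levelF hy N' fun j => (hN' j).1
  set τ : ℝ := min ε₀ (min ρ ρ') with hτ
  have hτ0 : 0 < τ := lt_min hε₀0 (lt_min hρ hρ')
  have hτε : τ ≤ ε₀ := min_le_left _ _
  have hτρ : τ ≤ ρ := (min_le_right _ _).trans (min_le_left _ _)
  have hτρ' : τ ≤ ρ' := (min_le_right _ _).trans (min_le_right _ _)
  obtain ⟨g, e, hgS, heS, he, hen, hxg, hed⟩ := cutoff' hS hx hxS hτ0
  obtain ⟨g', e', hgS', heS', he', hen', hyg, hed'⟩ := cutoff' hS hy hyS hτ0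
  set x₁ : B := cut τ x with hx₁
  set y₁ : B := cut τ y with hy₁
  have hNx : ∀ j, IsIdl (N j) ∧ x₁ ∉ N j := fun j =>
    ⟨(hN j).1, (hρN j τ hτ0 hτρ).resolve_right (hN j).2⟩
  have hNy : ∀ j, IsIdl (N' j) ∧ y₁ ∉ N' j := fun j =>
    ⟨(hN' j).1, (hρN' j τ hτ0 hτρ').resolve_right (hN' j).2⟩
  set d : B := cut ε₀ x with hdd
  set d' : B := cut ε₀ y with hdd'
  have hd : star d = d := star_cfc _ _
  have hd' : star d' = d' := star_cfc _ _
  have hxd : ‖x - d‖ ≤ ε₀ := norm_sub_cut hx hε₀0.le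
  have hyd : ‖y - d'‖ ≤ ε₀ := norm_sub_cut hy hε₀0.le
  obtain ⟨c, hc, hgood⟩ := goodF hS hPI he he' heS hen hen' hed hed' N N' hNx hNy
  set M : ℝ := (‖d * d‖ + ε / 2 + 1) / c with hM
  set M' : ℝ := (‖d' * d'‖ + ε / 2 + 1) / c with hM'
  have hM0 : 0 < M := by positivity
  have hM0' : 0 < M' := by positivity
  obtain ⟨C₁, C₂, B₁, B₂, ⟨h11, h12, h21, h22⟩, hcovx, hcovy⟩ :=
    hgood (ε / (8 * (M * M'))) (by positivity)
  have hpi : ∀ (a b : B), a ∈ S → b ∈ S → PIat (cut (c ^ 2) (a * star a + b * star b)) :=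
    fun a b ha hb => hPI _ (cut_mem hS (add_nonneg (mul_star_self_nonneg a)
      (mul_star_self_nonneg b)) (S.add_mem ((hS.2 _ a ha).2) ((hS.2 _ b hb).2)) (sq_nonneg c))
      (cut_nonneg _ _)
  have hidS : ∀ a b : B, a ∈ S → b ∈ S → idl (cut (c ^ 2) (a * star a + b * star b)) ≤ S :=
    fun a b ha hb => idl_le hS (cut_mem hS (add_nonneg (mul_star_self_nonneg a)
      (mul_star_self_nonneg b)) (S.add_mem ((hS.2 _ a ha).2) ((hS.2 _ b hb).2)) (sq_nonneg c))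
  have hdC : d ∈ idl (cut (c ^ 2) (e * C₁ * star (e * C₁) + e * C₂ * star (e * C₂))) :=
    cut_mem_of_tests hx hε₀0 hNt (isIdl_idl _)
      (hidS _ _ ((hS.2 _ e heS).2) ((hS.2 _ e heS).2)) hcovx
  have hdD : d' ∈ idl (cut (c ^ 2) (e' * B₁ * star (e' * B₁) + e' * B₂ * star (e' * B₂))) :=
    cut_mem_of_tests hy hε₀0 hNt' (isIdl_idl _)
      (hidS _ _ ((hS.2 _ e' heS').2) ((hS.2 _ e' heS').2)) hcovy
  obtain ⟨w₁, w₂, hw, hwn1, hwn2⟩ := exists_w2 (e * C₁) (e * C₂) hc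
    (hpi _ _ ((hS.2 _ e heS).2) ((hS.2 _ e heS).2)) hd hdC (show 0 < ε / 2 by positivity)
  obtain ⟨v₁, v₂, hv, hvn1, hvn2⟩ := exists_w2 (e' * B₁) (e' * B₂) hc
    (hpi _ _ ((hS.2 _ e' heS').2) ((hS.2 _ e' heS').2)) hd' hdD (show 0 < ε / 2 by positivity)
  have hwM : ∀ (v : B) (K : ℝ), 0 ≤ K → c ^ 2 * ‖v‖ ^ 2 ≤ K → ‖v‖ ≤ (K + 1) / c := by
    intro v K hK h
    rw [le_div_iff₀ hc]
    refine le_of_sq_le_sq ?_ (by positivity)
    nlinarith
  have m1 : ‖w₁‖ ≤ M := hwM w₁ (‖d * d‖ + ε / 2) (by positivity) hwn1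
  have m2 : ‖w₂‖ ≤ M := hwM w₂ (‖d * d‖ + ε / 2) (by positivity) hwn2
  have m3 : ‖v₁‖ ≤ M' := hwM v₁ (‖d' * d'‖ + ε / 2) (by positivity) hvn1
  have m4 : ‖v₂‖ ≤ M' := hwM v₂ (‖d' * d'‖ + ε / 2) (by positivity) hvn2
  have hxs : x * (g * (C₁ * w₁ + C₂ * w₂)) = e * C₁ * w₁ + e * C₂ * w₂ := by
    rw [← hxg]; noncomm_ring
  have hyt : y * (g' * (B₁ * v₁ + B₂ * v₂)) = e' * B₁ * v₁ + e' * B₂ * v₂ := by
    rw [← hyg]; noncomm_ring
  have hxx : star x = x := IsSelfAdjoint.of_nonneg hx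
  have hyy : star y = y := IsSelfAdjoint.of_nonneg hy
  have key : ∀ (u v p q : B), star u = u → star (p) * (u * v) * q = star (u * p) * (v * q) := by
    intro u v p q hu
    rw [star_mul, hu]; simp only [mul_assoc]
  refine ⟨g * (C₁ * w₁ + C₂ * w₂), (hS.2 _ g hgS).2, g' * (B₁ * v₁ + B₂ * v₂),
    (hS.2 _ g' hgS').2, ?_, ?_, ?_⟩
  · rw [key x x _ _ hxx, hxs]
    have h1 := norm_sq_sub hxd (min_le_left _ _)
    have h2 := hbd ‖x‖ (norm_nonneg _) (by linarith [norm_nonneg y])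
    have e1 : star (e * C₁ * w₁ + e * C₂ * w₂) * (e * C₁ * w₁ + e * C₂ * w₂) - x * x
        = (star (e * C₁ * w₁ + e * C₂ * w₂) * (e * C₁ * w₁ + e * C₂ * w₂) - d * d) +
          (d * d - x * x) := by abel
    rw [e1]
    exact (norm_add_le _ _).trans_lt (by linarith)
  · rw [key y y _ _ hyy, hyt]
    have h1 := norm_sq_sub hyd (min_le_left _ _)
    have h2 := hbd ‖y‖ (norm_nonneg _) (by linarith [norm_nonneg x])
    have e1 : star (e' * B₁ * v₁ + e' * B₂ * v₂) * (e' * B₁ * v₁ + e' * B₂ * v₂) - y * y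
        = (star (e' * B₁ * v₁ + e' * B₂ * v₂) * (e' * B₁ * v₁ + e' * B₂ * v₂) - d' * d') +
          (d' * d' - y * y) := by abel
    rw [e1]
    exact (norm_add_le _ _).trans_lt (by linarith)
  · rw [key x y _ _ hxx, hxs, hyt]
    have hb : ∀ (w v P Q : B), ‖w‖ ≤ M → ‖v‖ ≤ M' →
        ‖star P * Q‖ ≤ ε / (8 * (M * M')) → ‖star (P * w) * (Q * v)‖ ≤ ε / 8 := by
      intro w v P Q hw hv h
      have e1 : star (P * w) * (Q * v) = star w * (star P * Q) * v := by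
        simp only [star_mul, mul_assoc]
      rw [e1]
      calc ‖star w * (star P * Q) * v‖ ≤ ‖star w‖ * ‖star P * Q‖ * ‖v‖ :=
            (norm_mul_le _ _).trans (by gcongr; exact norm_mul_le _ _)
        _ ≤ M * (ε / (8 * (M * M'))) * M' := by rw [norm_star]; gcongr
        _ = ε / 8 := by field_simp
    have e1 : star (e * C₁ * w₁ + e * C₂ * w₂) * (e' * B₁ * v₁ + e' * B₂ * v₂) =
        (star (e * C₁ * w₁) * (e' * B₁ * v₁) + star (e * C₁ * w₁) * (e' * B₂ * v₂)) +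
        (star (e * C₂ * w₂) * (e' * B₁ * v₁) + star (e * C₂ * w₂) * (e' * B₂ * v₂)) := by
      rw [star_add]; noncomm_ring
    rw [e1]
    have b1 := hb w₁ v₁ (e * C₁) (e' * B₁) m1 m3 h11
    have b2 := hb w₁ v₂ (e * C₁) (e' * B₂) m1 m4 h12
    have b3 := hb w₂ v₁ (e * C₂) (e' * B₁) m2 m3 h21
    have b4 := hb w₂ v₂ (e * C₂) (e' * B₂) m2 m4 h22
    have t1 := norm_add_le (star (e * C₁ * w₁) * (e' * B₁ * v₁))
      (star (e * C₁ * w₁) * (e' * B₂ * v₂))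
    have t2 := norm_add_le (star (e * C₂ * w₂) * (e' * B₁ * v₁))
      (star (e * C₂ * w₂) * (e' * B₂ * v₂))
    refine (norm_add_le _ _).trans_lt ?_
    linarith

end ord

/-- Finite tests: for every positive `h` and `ε > 0` there are finitely many closed ideals, none
of which contains `h`, such that every closed ideal at distance at least `ε` from `h` is contained
in one of them. -/
def FiniteTests (A : Type u) [NonUnitalCStarAlgebra A] : Prop :=
  ∀ h : A, IsPos h → ∀ ε : ℝ, 0 < ε → ∃ (m : ℕ) (M : Fin m → Submodule ℂ A),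
    (∀ j, IsClosedIdeal (M j) ∧ h ∉ M j) ∧
      ∀ I : Submodule ℂ A, IsClosedIdeal I → (∀ x ∈ I, ε ≤ ‖h - x‖) → ∃ j, I ≤ M j

variable {A : Type u} [NonUnitalCStarAlgebra A]

theorem FTr_SA [PartialOrder (Unitization ℂ A)] [StarOrderedRing (Unitization ℂ A)]
    (hF : FiniteTests A) : FTr (SA A) := by
  intro h hhS hh ε hε
  obtain ⟨h', rfl⟩ := mem_SA.1 hhS
  obtain ⟨m, M, hM, hMt⟩ := hF h' (isPos_of_nonneg hh) ε hε
  refine ⟨m, fun j => (M j).map (Unitization.inrHom ℂ ℂ A), fun j => ⟨map_isIdl (hM j).1, ?_⟩, ?_⟩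
  · rintro ⟨z, hz, hzz⟩
    have : z = h' := Unitization.inr_injective (R := ℂ) hzz
    rw [this] at hz
    exact (hM j).2 hz
  · intro I hI hIS hd
    obtain ⟨j, hj⟩ := hMt (I.comap (Unitization.inrHom ℂ ℂ A)) (comap_closed hI) fun z hz => by
      have h1 := hd _ hz
      rw [Unitization.inrHom_apply, ← Unitization.inr_sub, Unitization.norm_inr] at h1
      exact h1
    refine ⟨j, fun z hz => ?_⟩
    obtain ⟨a, rfl⟩ := mem_SA.1 (hIS hz)
    exact ⟨a, hj hz, rfl⟩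

/-- Purely infinite algebras with finite tests are strongly purely infinite. -/
theorem spi_of_pi_F (hA : FiniteTests A) (h : PurelyInfinite A) :
    StronglyPurelyInfinite A := by
  let _ := CStarAlgebra.spectralOrder (Unitization ℂ A)
  have _ := CStarAlgebra.spectralOrderedRing (Unitization ℂ A)
  intro x y hx hy ε hε
  obtain ⟨s, hs, t, ht, h1, h2, h3⟩ := coreF isIdl_SA (PIat_SA h) (FTr_SA hA)
    (nonneg_of_isPos hx) (nonneg_of_isPos hy) (mem_SA.2 ⟨x, rfl⟩) (mem_SA.2 ⟨y, rfl⟩) hε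
  obtain ⟨s', rfl⟩ := mem_SA.1 hs
  obtain ⟨t', rfl⟩ := mem_SA.1 ht
  refine ⟨s', t', ?_, ?_, ?_⟩
  · rw [← Unitization.norm_inr (𝕜 := ℂ) (A := A)]
    simpa using h1
  · rw [← Unitization.norm_inr (𝕜 := ℂ) (A := A)]
    simpa using h2
  · rw [← Unitization.norm_inr (𝕜 := ℂ) (A := A)]
    simpa using h3

end Vale.Agent.P133
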