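import Vale.Agent.P133.Core

/-!
# P133: elements of the ideal of a properly infinite element
-/

open scoped ComplexOrder

namespace Vale.Agent.P133

universe u

variable {B : Type u} [CStarAlgebra B]

/-- There are two almost orthogonal approximate copies of `G` under `G`. -/
def PIat (G : B) : Prop :=
  ∀ ε : ℝ, 0 < ε → ∃ z₁ z₂ : B, ‖star z₁ * G * z₁ - G‖ < ε ∧ ‖star z₂ * G * z₂ - G‖ < ε ∧
    ‖star z₁ * G * z₂‖ < ε

/-- Sums of elements `v* G v`. -/
def Sm (G : B) : AddSubmonoid B := AddSubmonoid.closure {z | ∃ v : B, z = star v * G * v}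

theorem exists_of_mem_Sm {G : B} (hG : star G = G) (hPI : PIat G) {q : B} (hq : q ∈ Sm G) :
    ∀ δ : ℝ, 0 < δ → ∃ S : B, ‖star S * G * S - q‖ < δ := by
  refine AddSubmonoid.closure_induction
    (motive := fun q _ => ∀ δ : ℝ, 0 < δ → ∃ S : B, ‖star S * G * S - q‖ < δ) ?_ ?_ ?_ hq
  · rintro x ⟨v, rfl⟩ δ hδ
    exact ⟨v, by simpa using hδ⟩
  · intro δ hδ
    exact ⟨0, by simpa using hδ⟩
  · intro q₁ q₂ _ _ h₁ h₂ δ hδ
    obtain ⟨S₁, hS₁⟩ := h₁ (δ / 4) (by positivity)
    obtain ⟨S₂, hS₂⟩ := h₂ (δ / 4) (by positivity)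
    set M : ℝ := (‖S₁‖ + ‖S₂‖ + 1) ^ 2 with hM
    have hM0 : 0 < M := by positivity
    obtain ⟨z₁, z₂, h11, h22, h12⟩ := hPI (δ / (8 * M)) (by positivity)
    refine ⟨z₁ * S₁ + z₂ * S₂, ?_⟩
    have h21 : ‖star z₂ * G * z₁‖ < δ / (8 * M) := by
      rw [← norm_star]
      simpa [star_mul, mul_assoc, hG] using h12
    have hb : ∀ (a b z : B), ‖a‖ ≤ ‖S₁‖ + ‖S₂‖ + 1 → ‖b‖ ≤ ‖S₁‖ + ‖S₂‖ + 1 →
        ‖z‖ < δ / (8 * M) → ‖star a * z * b‖ ≤ δ / 8 := by
      intro a b z ha hb hz
      calc ‖star a * z * b‖ ≤ ‖star a‖ * ‖z‖ * ‖b‖ :=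
            (norm_mul_le _ _).trans (by gcongr; exact norm_mul_le _ _)
        _ ≤ (‖S₁‖ + ‖S₂‖ + 1) * (δ / (8 * M)) * (‖S₁‖ + ‖S₂‖ + 1) := by
            rw [norm_star]; gcongr
        _ = δ / 8 := by rw [hM]; field_simp
    have n1 : ‖S₁‖ ≤ ‖S₁‖ + ‖S₂‖ + 1 := by linarith [norm_nonneg S₁, norm_nonneg S₂]
    have n2 : ‖S₂‖ ≤ ‖S₁‖ + ‖S₂‖ + 1 := by linarith [norm_nonneg S₁, norm_nonneg S₂]
    have e : star (z₁ * S₁ + z₂ * S₂) * G * (z₁ * S₁ + z₂ * S₂) - (q₁ + q₂)
        = (star S₁ * (star z₁ * G * z₁ - G) * S₁ + star S₁ * (star z₁ * G * z₂) * S₂ +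
          star S₂ * (star z₂ * G * z₁) * S₁ + star S₂ * (star z₂ * G * z₂ - G) * S₂) +
          ((star S₁ * G * S₁ - q₁) + (star S₂ * G * S₂ - q₂)) := by
      simp only [star_add, star_mul]
      noncomm_ring
    rw [e]
    have b1 := hb S₁ S₁ _ n1 n1 h11
    have b2 := hb S₁ S₂ _ n1 n2 h12
    have b3 := hb S₂ S₁ _ n2 n1 h21
    have b4 := hb S₂ S₂ _ n2 n2 h22
    refine (norm_add_le _ _).trans_lt ?_
    have t1 := norm_add_le (star S₁ * (star z₁ * G * z₁ - G) * S₁ +
      star S₁ * (star z₁ * G * z₂) * S₂ + star S₂ * (star z₂ * G * z₁) * S₁)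
      (star S₂ * (star z₂ * G * z₂ - G) * S₂)
    have t2 := norm_add_le (star S₁ * (star z₁ * G * z₁ - G) * S₁ +
      star S₁ * (star z₁ * G * z₂) * S₂) (star S₂ * (star z₂ * G * z₁) * S₁)
    have t3 := norm_add_le (star S₁ * (star z₁ * G * z₁ - G) * S₁)
      (star S₁ * (star z₁ * G * z₂) * S₂)
    have t4 := norm_add_le (star S₁ * G * S₁ - q₁) (star S₂ * G * S₂ - q₂)
    linarith

section ord

variable [PartialOrder B] [StarOrderedRing B]

theorem conj_le {a b : B} (h : a ≤ b) (c : B) : star c * a * c ≤ star c * b * c :=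
  star_left_conjugate_le_conjugate h c

theorem mul_self_le_norm_smul {G : B} (hG : 0 ≤ G) : G * G ≤ ‖G‖ • G := by
  have h1 : G ≤ ‖G‖ • (1 : B) := by
    have := (IsSelfAdjoint.of_nonneg hG).le_algebraMap_norm_self
    rwa [Algebra.algebraMap_eq_smul_one] at this
  set r : B := cfc Real.sqrt G with hr
  have hrs : star r = r := star_cfc _ _
  have hrr : r * r = G := by
    have h2 : cfc (fun t : ℝ => t) G = r * r :=
      F_mul hG Real.continuous_sqrt Real.continuous_sqrt (fun t ht => (Real.mul_self_sqrt ht).symm)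
    rw [← h2, cfc_id' ℝ G (IsSelfAdjoint.of_nonneg hG)]
  have h3 := conj_le h1 r
  have h4 : star r * G * r = G * G := by
    rw [hrs]
    nth_rw 1 [← hrr]
    rw [← hrr]
    simp only [mul_assoc]
  have h5 : star r * (‖G‖ • (1 : B)) * r = ‖G‖ • G := by
    rw [hrs, mul_smul_comm, smul_mul_assoc, mul_one, hrr]
  rwa [h4, h5] at h3

theorem exists_Sm_of_mem_sp {G : B} (hG : 0 ≤ G) {w : B} (hw : w ∈ sp G) :
    ∃ q ∈ Sm G, star w * w ≤ q := by
  refine Submodule.span_induction (p := fun w _ => ∃ q ∈ Sm G, star w * w ≤ q) ?_ ?_ ?_ ?_ hw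
  · rintro x ⟨a, b, rfl⟩
    have hGs : star G = G := (IsSelfAdjoint.of_nonneg hG)
    refine ⟨⌈‖a‖ ^ 2 * ‖G‖⌉₊ • (star b * G * b), (Sm G).nsmul_mem
      (AddSubmonoid.subset_closure ⟨b, rfl⟩) _, ?_⟩
    have h0 : 0 ≤ star b * G * b := star_left_conjugate_nonneg hG b
    have h1 : star a * a ≤ (‖a‖ ^ 2) • (1 : B) := by
      have := CStarAlgebra.star_mul_le_algebraMap_norm_sq (a := a)
      rwa [Algebra.algebraMap_eq_smul_one] at this
    have h2 : star (G * b) * (star a * a) * (G * b) ≤ star (G * b) * ((‖a‖ ^ 2) • (1 : B)) * (G * b) :=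
      conj_le h1 _
    have h3 : star (G * b) * ((‖a‖ ^ 2) • (1 : B)) * (G * b)
        = (‖a‖ ^ 2) • (star b * (G * G) * b) := by
      rw [star_mul, hGs]
      simp only [mul_smul_comm, smul_mul_assoc, mul_one, mul_assoc]
    have h4 : star b * (G * G) * b ≤ ‖G‖ • (star b * G * b) := by
      have := conj_le (mul_self_le_norm_smul hG) b
      rwa [mul_smul_comm, smul_mul_assoc] at this
    have h5 : star (a * G * b) * (a * G * b) = star (G * b) * (star a * a) * (G * b) := by
      simp only [star_mul, mul_assoc]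
    rw [h5, ← Nat.cast_smul_eq_nsmul ℝ]
    calc star (G * b) * (star a * a) * (G * b) ≤ (‖a‖ ^ 2) • (star b * (G * G) * b) := by
          rw [← h3]; exact h2
      _ ≤ (‖a‖ ^ 2) • (‖G‖ • (star b * G * b)) := smul_le_smul_of_nonneg_left h4 (by positivity)
      _ = (‖a‖ ^ 2 * ‖G‖) • (star b * G * b) := by rw [smul_smul]
      _ ≤ (⌈‖a‖ ^ 2 * ‖G‖⌉₊ : ℝ) • (star b * G * b) :=
          smul_le_smul_of_nonneg_right (Nat.le_ceil _) h0
  · exact ⟨0, (Sm G).zero_mem, by simp⟩
  · rintro x y _ _ ⟨p, hp, hxp⟩ ⟨q, hq, hyq⟩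
    refine ⟨2 • (p + q), (Sm G).nsmul_mem ((Sm G).add_mem hp hq) 2, ?_⟩
    have h1 : 0 ≤ star (x - y) * (x - y) := star_mul_self_nonneg _
    have h2 : 2 • (star x * x + star y * y) - star (x + y) * (x + y)
        = star (x - y) * (x - y) := by
      simp only [star_add, star_sub]
      noncomm_ring
    have h3 : star (x + y) * (x + y) ≤ 2 • (star x * x + star y * y) := by
      rw [← sub_nonneg, h2]; exact h1
    exact h3.trans (nsmul_le_nsmul_right (add_le_add hxp hyq) 2)
  · rintro c x _ ⟨q, hq, hxq⟩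
    refine ⟨⌈‖c‖ ^ 2⌉₊ • q, (Sm G).nsmul_mem hq _, ?_⟩
    have h0 : 0 ≤ star x * x := star_mul_self_nonneg x
    have h1 : star (c • x) * (c • x) = (‖c‖ ^ 2) • (star x * x) := by
      rw [star_smul, smul_mul_assoc, mul_smul_comm, smul_smul]
      have : star c * c = ((‖c‖ ^ 2 : ℝ) : ℂ) := by
        rw [Complex.star_def, mul_comm, Complex.mul_conj, Complex.normSq_eq_norm_sq]
      rw [this]
      exact Complex.coe_smul _ _
    rw [h1, ← Nat.cast_smul_eq_nsmul ℝ]
    calc (‖c‖ ^ 2) • (star x * x) ≤ (⌈‖c‖ ^ 2⌉₊ : ℝ) • (star x * x) :=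
          smul_le_smul_of_nonneg_right (Nat.le_ceil _) h0
      _ ≤ (⌈‖c‖ ^ 2⌉₊ : ℝ) • q := smul_le_smul_of_nonneg_left hxq (Nat.cast_nonneg _)

theorem exists_r {w q : B} (h : star w * w ≤ q) {η : ℝ} (hη : 0 < η) :
    ∃ r : B, ‖star r * q * r - w * star w‖ ≤ η := by
  have hq : 0 ≤ q := (star_mul_self_nonneg w).trans h
  set f : ℝ → ℝ := fun t => (Real.sqrt (max t 0 + η))⁻¹ with hf
  have hpos : ∀ t : ℝ, 0 < max t 0 + η := fun t => by
    have := le_max_right t 0
    linarith
  have hfc : Continuous f := Continuous.inv₀ (by fun_prop)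
    (fun t => (Real.sqrt_pos.2 (hpos t)).ne')
  set m : B := cfc f q with hm
  have hms : star m = m := star_cfc f q
  have hff : ∀ t, 0 ≤ t → f t * f t = (t + η)⁻¹ := by
    intro t ht
    have h1 := hpos t
    rw [hf]
    show (Real.sqrt (max t 0 + η))⁻¹ * (Real.sqrt (max t 0 + η))⁻¹ = _
    rw [← mul_inv, Real.mul_self_sqrt h1.le, max_eq_left ht]
  have hmm : m * m = cfc (fun t => f t * f t) q :=
    (F_mul hq hfc hfc (h := fun t => f t * f t) (fun t _ => rfl)).symm
  have hmqm : m * q * m = cfc (fun t => f t * t * f t) q := by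
    rw [F_mul hq (f := fun t => f t * t) (g := f) (hfc.mul continuous_id') hfc
      (h := fun t => f t * t * f t) (fun t _ => rfl),
      F_mulX hq hfc (h := fun t => f t * t) (fun t _ => rfl)]
  have h1 : m * q * m = 1 - η • (m * m) := by
    rw [hmqm, hmm, ← cfc_const_mul η (fun t => f t * f t) q (hfc.mul hfc).continuousOn, ← cfc_const_one ℝ q,
      ← cfc_sub (fun _ => (1 : ℝ)) (fun t => η * (f t * f t)) q (by fun_prop)
        (continuous_const.mul (hfc.mul hfc)).continuousOn]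
    refine cfc_congr fun t ht => ?_
    have h0 := mem_spec hq ht
    have h2 := hff t h0
    show f t * t * f t = 1 - η * (f t * f t)
    have h3 : f t * t * f t = t * (f t * f t) := by ring
    rw [h3, h2]
    field_simp
    ring
  have h2 : ‖m * q * m‖ ≤ 1 := by
    rw [hmqm]
    refine norm_F_le hq zero_le_one fun t ht => ?_
    have h3 : f t * t * f t = t * (f t * f t) := by ring
    rw [h3, hff t ht, abs_of_nonneg (by positivity), ← div_eq_mul_inv, div_le_one (by linarith)]
    linarith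
  refine ⟨m * star w, ?_⟩
  have h3 : star (m * star w) * q * (m * star w) - w * star w
      = -(η • ((w * m) * star (w * m))) := by
    have : star (m * star w) * q * (m * star w) = w * (m * q * m) * star w := by
      simp only [star_mul, star_star, hms, mul_assoc]
    rw [this, h1, star_mul, hms, mul_sub, sub_mul, mul_one, mul_smul_comm, smul_mul_assoc]
    simp only [mul_assoc]
    abel
  rw [h3, norm_neg, norm_smul, Real.norm_eq_abs, abs_of_pos hη]
  have h4 : ‖w * m * star (w * m)‖ ≤ 1 := by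
    rw [CStarRing.norm_self_mul_star, ← CStarRing.norm_star_mul_self]
    have h5 : star (w * m) * (w * m) = star m * (star w * w) * m := by
      simp only [star_mul, mul_assoc]
    rw [h5]
    have h6 : star m * (star w * w) * m ≤ star m * q * m := conj_le h m
    refine (CStarAlgebra.norm_le_norm_of_nonneg_of_le
      (star_left_conjugate_nonneg (star_mul_self_nonneg w) m) h6).trans ?_
    rwa [hms]
  calc η * ‖w * m * star (w * m)‖ ≤ η * 1 := by gcongr
    _ = η := mul_one η

/-- F1: a selfadjoint element `d` of the closed ideal generated by the properly infinite positive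
element `G`: `d²` is a limit of elements `v* G v`. -/
theorem exists_v {G : B} (hG : 0 ≤ G) (hPI : PIat G) {d : B} (hd : star d = d)
    (hdG : d ∈ idl G) {δ : ℝ} (hδ : 0 < δ) : ∃ v : B, ‖star v * G * v - d * d‖ < δ := by
  set η : ℝ := min 1 (δ / (8 * (‖d‖ + 1))) with hη
  have hη0 : 0 < η := lt_min one_pos (by positivity)
  obtain ⟨w, hw, hwd⟩ : ∃ w ∈ sp G, ‖d - w‖ < η := by
    have h1 : d ∈ closure (sp G : Set B) := hdG
    rw [Metric.mem_closure_iff] at h1
    obtain ⟨w, hw, h⟩ := h1 η hη0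
    exact ⟨w, hw, by rwa [dist_eq_norm] at h⟩
  obtain ⟨q, hq, hwq⟩ := exists_Sm_of_mem_sp hG hw
  obtain ⟨r, hr⟩ := exists_r hwq (η := δ / 4) (by positivity)
  obtain ⟨S, hS⟩ := exists_of_mem_Sm (IsSelfAdjoint.of_nonneg hG) hPI hq
    (δ / (4 * (‖r‖ + 1) ^ 2)) (by positivity)
  refine ⟨S * r, ?_⟩
  have e : star (S * r) * G * (S * r) - d * d = star r * (star S * G * S - q) * r +
      (star r * q * r - w * star w) + (w * star w - d * d) := by
    simp only [star_mul]
    noncomm_ring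
  have b1 : ‖star r * (star S * G * S - q) * r‖ ≤ δ / 4 := by
    calc ‖star r * (star S * G * S - q) * r‖ ≤ ‖star r‖ * ‖star S * G * S - q‖ * ‖r‖ :=
          (norm_mul_le _ _).trans (by gcongr; exact norm_mul_le _ _)
      _ ≤ (‖r‖ + 1) * (δ / (4 * (‖r‖ + 1) ^ 2)) * (‖r‖ + 1) := by
          rw [norm_star]
          have : ‖r‖ ≤ ‖r‖ + 1 := by linarith
          gcongr
      _ = δ / 4 := by field_simp
  have b2 : ‖w * star w - d * d‖ < δ / 2 := by
    have e2 : w * star w - d * d = -((d - w) * star w + d * star (d - w)) := by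
      simp only [star_sub, hd]
      noncomm_ring
    have hwn : ‖w‖ ≤ ‖d‖ + 1 := by
      have h1 : w = d - (d - w) := by abel
      rw [h1]
      refine (norm_sub_le _ _).trans ?_
      have := min_le_left (1 : ℝ) (δ / (8 * (‖d‖ + 1)))
      linarith
    rw [e2, norm_neg]
    calc ‖(d - w) * star w + d * star (d - w)‖ ≤ ‖d - w‖ * ‖star w‖ + ‖d‖ * ‖star (d - w)‖ :=
          (norm_add_le _ _).trans (add_le_add (norm_mul_le _ _) (norm_mul_le _ _))
      _ ≤ η * (‖d‖ + 1) + (‖d‖ + 1) * η := by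
          rw [norm_star, norm_star]
          have : ‖d‖ ≤ ‖d‖ + 1 := by linarith
          gcongr
      _ = 2 * (η * (‖d‖ + 1)) := by ring
      _ ≤ 2 * (δ / (8 * (‖d‖ + 1)) * (‖d‖ + 1)) := by
          gcongr
          exact min_le_right _ _
      _ = δ / 4 := by
          have : ‖d‖ + 1 ≠ 0 := by positivity
          field_simp
          norm_num
      _ < δ / 2 := by linarith
  rw [e]
  refine (norm_add_le _ _).trans_lt ?_
  have t1 := norm_add_le (star r * (star S * G * S - q) * r) (star r * q * r - w * star w)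
  linarith

/-- Proposition P. -/
theorem exists_w (C : B) {c : ℝ} (hc : 0 < c) (hPI : PIat (cut (c ^ 2) (C * star C))) {d : B}
    (hd : star d = d) (hdG : d ∈ idl (cut (c ^ 2) (C * star C))) {δ : ℝ} (hδ : 0 < δ) :
    ∃ w : B, ‖star (C * w) * (C * w) - d * d‖ < δ ∧ c ^ 2 * ‖w‖ ^ 2 ≤ ‖d * d‖ + δ := by
  set X : B := C * star C with hX
  have hX0 : 0 ≤ X := mul_star_self_nonneg C
  have hc2 : 0 < c ^ 2 := by positivity
  obtain ⟨v, hv⟩ := exists_v (cut_nonneg (c ^ 2) X) hPI hd hdG hδ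
  set k : ℝ → ℝ := fun t => (max t (c ^ 2))⁻¹ * Real.sqrt (max (t - c ^ 2) 0) with hk
  have hkc : Continuous k := Continuous.mul (Continuous.inv₀ (by fun_prop)
    (fun t => (lt_of_lt_of_le hc2 (le_max_right _ _)).ne')) (by fun_prop)
  have hks : star (cfc k X) = cfc k X := star_cfc k X
  have hXs : star X = X := IsSelfAdjoint.of_nonneg hX0
  have hktk : cfc k X * X * cfc k X = cfc (fun t => k t * t * k t) X := by
    rw [F_mul hX0 (f := fun t => k t * t) (g := k) (hkc.mul continuous_id') hkc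
      (h := fun t => k t * t * k t) (fun t _ => rfl),
      F_mulX hX0 hkc (h := fun t => k t * t) (fun t _ => rfl)]
  have hkt2 : cfc k X * X * (X * cfc k X) = cut (c ^ 2) X := by
    have h1 : cfc k X * X = cfc (fun t => k t * t) X :=
      (F_mulX hX0 hkc (h := fun t => k t * t) (fun t _ => rfl)).symm
    have h2 : X * cfc k X = cfc (fun t => t * k t) X :=
      (F_Xmul hX0 hkc (h := fun t => t * k t) (fun t _ => rfl)).symm
    rw [h1, h2]
    symm
    refine F_mul hX0 (hkc.mul continuous_id') (continuous_id'.mul hkc) fun t ht => ?_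
    rcases le_or_gt t (c ^ 2) with h | h
    · have h3 : max (t - c ^ 2) 0 = 0 := max_eq_right (by linarith)
      have h4 : k t = 0 := by
        rw [hk]
        show (max t (c ^ 2))⁻¹ * Real.sqrt (max (t - c ^ 2) 0) = 0
        rw [h3, Real.sqrt_zero, mul_zero]
      rw [h3, h4]
      ring
    · have ht0 : 0 < t := lt_trans hc2 h
      have h3 : max (t - c ^ 2) 0 = t - c ^ 2 := max_eq_left (by linarith)
      have h4 : k t * t = Real.sqrt (t - c ^ 2) := by
        rw [hk]
        show (max t (c ^ 2))⁻¹ * Real.sqrt (max (t - c ^ 2) 0) * t = _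
        rw [h3, max_eq_left h.le]
        field_simp
      show max (t - c ^ 2) 0 = k t * t * (t * k t)
      rw [h3, mul_comm t (k t), h4, Real.mul_self_sqrt (by linarith)]
  refine ⟨star C * cfc k X * v, ?_, ?_⟩
  · have h1 : star (C * (star C * cfc k X * v)) * (C * (star C * cfc k X * v))
        = star v * (cfc k X * X * (X * cfc k X)) * v := by
      simp only [hX, star_mul, star_star, mul_assoc]
      simp only [← mul_assoc C, ← hX, hks]
    rw [h1, hkt2]
    exact hv
  · have h1 : star (star C * cfc k X * v) * (star C * cfc k X * v)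
        = star v * (cfc k X * X * cfc k X) * v := by
      rw [hX]
      simp only [star_mul, star_star, mul_assoc]
      rw [← hX, hks]
    have h2 : cfc k X * X * cfc k X ≤ (c ^ 2)⁻¹ • cut (c ^ 2) X := by
      rw [hktk, cut, ← cfc_const_mul ((c ^ 2)⁻¹) _ X (by fun_prop)]
      refine F_mono hX0 ((hkc.mul continuous_id').mul hkc) (by fun_prop) fun t ht => ?_
      rcases le_or_gt t (c ^ 2) with h | h
      · have h3 : max (t - c ^ 2) 0 = 0 := max_eq_right (by linarith)
        have h4 : k t = 0 := by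
          rw [hk]
          show (max t (c ^ 2))⁻¹ * Real.sqrt (max (t - c ^ 2) 0) = 0
          rw [h3, Real.sqrt_zero, mul_zero]
        rw [h3, h4]
        simp
      · have ht0 : 0 < t := lt_trans hc2 h
        have h3 : max (t - c ^ 2) 0 = t - c ^ 2 := max_eq_left (by linarith)
        have h5 : k t = t⁻¹ * Real.sqrt (t - c ^ 2) := by
          rw [hk]
          show (max t (c ^ 2))⁻¹ * Real.sqrt (max (t - c ^ 2) 0) = _
          rw [h3, max_eq_left h.le]
        have h6 : k t * t * k t = t⁻¹ * (t - c ^ 2) := by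
          rw [h5]
          have h7 := Real.mul_self_sqrt (show 0 ≤ t - c ^ 2 by linarith)
          calc t⁻¹ * Real.sqrt (t - c ^ 2) * t * (t⁻¹ * Real.sqrt (t - c ^ 2))
              = (t⁻¹ * t) * t⁻¹ * (Real.sqrt (t - c ^ 2) * Real.sqrt (t - c ^ 2)) := by ring
            _ = t⁻¹ * (t - c ^ 2) := by rw [h7, inv_mul_cancel₀ ht0.ne', one_mul]
        show k t * t * k t ≤ (c ^ 2)⁻¹ * max (t - c ^ 2) 0
        rw [h6, h3]
        have h8 : 0 ≤ t - c ^ 2 := by linarith
        have h9 : t⁻¹ ≤ (c ^ 2)⁻¹ := inv_anti₀ hc2 h.le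
        exact mul_le_mul_of_nonneg_right h9 h8
    have h3 : ‖star C * cfc k X * v‖ ^ 2 ≤ (c ^ 2)⁻¹ * ‖star v * cut (c ^ 2) X * v‖ := by
      rw [norm_sq_eq, h1]
      have h4 : star v * (cfc k X * X * cfc k X) * v ≤
          (c ^ 2)⁻¹ • (star v * cut (c ^ 2) X * v) := by
        have := conj_le h2 v
        rwa [mul_smul_comm, smul_mul_assoc] at this
      have h5 : 0 ≤ star v * (cfc k X * X * cfc k X) * v := by
        refine star_left_conjugate_nonneg ?_ v
        have := star_left_conjugate_nonneg hX0 (cfc k X)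
        rwa [hks] at this
      refine (CStarAlgebra.norm_le_norm_of_nonneg_of_le h5 h4).trans ?_
      rw [norm_smul, Real.norm_eq_abs, abs_of_pos (inv_pos.2 hc2)]
    have h4 : ‖star v * cut (c ^ 2) X * v‖ ≤ ‖d * d‖ + δ := by
      have : star v * cut (c ^ 2) X * v = d * d + (star v * cut (c ^ 2) X * v - d * d) := by abel
      rw [this]
      exact (norm_add_le _ _).trans (by linarith)
    calc c ^ 2 * ‖star C * cfc k X * v‖ ^ 2
        ≤ c ^ 2 * ((c ^ 2)⁻¹ * ‖star v * cut (c ^ 2) X * v‖) := by gcongr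
      _ = ‖star v * cut (c ^ 2) X * v‖ := by rw [← mul_assoc, mul_inv_cancel₀ hc2.ne', one_mul]
      _ ≤ _ := h4

end ord

end Vale.Agent.P133
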