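import Vale.Agent.P133.Trich

/-!
# P133, part (a): purely infinite implies strongly purely infinite
-/

open scoped ComplexOrder

namespace Vale.Agent.P133

universe u

section ord

variable {B : Type u} [CStarAlgebra B] [PartialOrder B] [StarOrderedRing B]

theorem cutoff {S : Submodule ℂ B} (hS : IsIdl S) {x : B} (hx : 0 ≤ x) (hxS : x ∈ S) {ε : ℝ}
    (hε : 0 < ε) : ∃ g e d : B, g ∈ S ∧ e ∈ S ∧ star e = e ∧ ‖e‖ ≤ 1 ∧ x * g = e ∧ star d = d ∧
      e * d = d ∧ ‖x - d‖ ≤ ε := by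
  set f : ℝ → ℝ := fun t => max 0 (min 1 (2 * t / ε - 1)) with hf
  have hfc : Continuous f := by
    rw [hf]; fun_prop
  have hm0 : ∀ t : ℝ, 0 < max t (ε / 2) := fun t =>
    lt_of_lt_of_le (by positivity) (le_max_right _ _)
  have hic : Continuous fun t : ℝ => (max t (ε / 2))⁻¹ :=
    Continuous.inv₀ (by fun_prop) (fun t => (hm0 t).ne')
  set g : ℝ → ℝ := fun t => f t * (max t (ε / 2))⁻¹ with hg
  have hgc : Continuous g := hfc.mul hic
  set k : ℝ → ℝ := fun t => g t * (max t (ε / 2))⁻¹ with hk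
  have hkc : Continuous k := hgc.mul hic
  have hf0 : ∀ t, t ≤ ε / 2 → f t = 0 := by
    intro t ht
    have h1 : 2 * t / ε - 1 ≤ 0 := by
      rw [sub_nonpos, div_le_one hε]; linarith
    exact max_eq_left ((min_le_right _ _).trans h1)
  have hf1 : ∀ t, ε ≤ t → f t = 1 := by
    intro t ht
    have h1 : 1 ≤ 2 * t / ε - 1 := by
      rw [le_sub_iff_add_le, le_div_iff₀ hε]; linarith
    show max 0 (min 1 (2 * t / ε - 1)) = 1
    rw [min_eq_left h1, max_eq_right zero_le_one]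
  have htg : ∀ t, 0 ≤ t → f t = t * g t := by
    intro t ht
    rcases le_or_gt t (ε / 2) with h | h
    · have : g t = 0 := by rw [hg]; show f t * _ = 0; rw [hf0 t h, zero_mul]
      rw [hf0 t h, this, mul_zero]
    · show f t = t * (f t * (max t (ε / 2))⁻¹)
      rw [max_eq_left h.le]
      have : t ≠ 0 := by linarith
      field_simp
  have htk : ∀ t, 0 ≤ t → g t = t * k t := by
    intro t ht
    rcases le_or_gt t (ε / 2) with h | h
    · have h1 : g t = 0 := by rw [hg]; show f t * _ = 0; rw [hf0 t h, zero_mul]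
      have h2 : k t = 0 := by rw [hk]; show g t * _ = 0; rw [h1, zero_mul]
      rw [h1, h2, mul_zero]
    · show g t = t * (g t * (max t (ε / 2))⁻¹)
      rw [max_eq_left h.le]
      have : t ≠ 0 := by linarith
      field_simp
  have e1 : x * cfc g x = cfc f x := (F_Xmul hx hgc htg).symm
  have e2 : x * cfc k x = cfc g x := (F_Xmul hx hkc htk).symm
  refine ⟨cfc g x, cfc f x, cut ε x, ?_, ?_, star_cfc _ _, ?_, e1, star_cfc _ _, ?_, ?_⟩
  · rw [← e2]; exact (hS.2 _ x hxS).2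
  · rw [← e1]; exact (hS.2 _ x hxS).2
  · refine norm_F_le hx zero_le_one fun t _ => ?_
    rw [abs_of_nonneg (le_max_left _ _)]
    exact max_le zero_le_one (min_le_left _ _)
  · refine (F_mul hx hfc (by fun_prop) fun t _ => ?_).symm
    rcases le_or_gt t ε with h | h
    · rw [max_eq_right (show t - ε ≤ 0 by linarith), mul_zero]
    · rw [hf1 t h.le, one_mul]
  · have e3 : x - cut ε x = cfc (fun t : ℝ => t - max (t - ε) 0) x := by
      rw [cfc_sub (fun t : ℝ => t) (fun t : ℝ => max (t - ε) 0) x (by fun_prop) (by fun_prop),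
        cfc_id' ℝ x (IsSelfAdjoint.of_nonneg hx), cut]
    rw [e3]
    refine norm_F_le hx hε.le fun t ht => ?_
    rcases le_or_gt t ε with h | h
    · rw [max_eq_right (show t - ε ≤ 0 by linarith), sub_zero, abs_of_nonneg ht]
      exact h
    · rw [max_eq_left (show 0 ≤ t - ε by linarith), abs_of_nonneg (by linarith)]
      linarith

theorem norm_sq_sub {x d : B} {ε₀ : ℝ} (h : ‖x - d‖ ≤ ε₀) (h1 : ε₀ ≤ 1) :
    ‖d * d - x * x‖ ≤ ε₀ * (2 * ‖x‖ + 1) := by
  have h0 : 0 ≤ ε₀ := (norm_nonneg _).trans h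
  have e : d * d - x * x = -((x - d) * d + x * (x - d)) := by noncomm_ring
  have hd : ‖d‖ ≤ ‖x‖ + 1 := by
    have : d = x - (x - d) := by abel
    rw [this]
    exact (norm_sub_le _ _).trans (by linarith)
  rw [e, norm_neg]
  calc ‖(x - d) * d + x * (x - d)‖ ≤ ‖x - d‖ * ‖d‖ + ‖x‖ * ‖x - d‖ :=
        (norm_add_le _ _).trans (add_le_add (norm_mul_le _ _) (norm_mul_le _ _))
    _ ≤ ε₀ * (‖x‖ + 1) + ‖x‖ * ε₀ := by gcongr
    _ = ε₀ * (2 * ‖x‖ + 1) := by ring

theorem core {S : Submodule ℂ B} (hS : IsIdl S) (hPI : ∀ G ∈ S, 0 ≤ G → PIat G)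
    (hTO : ∀ I J : Submodule ℂ B, IsIdl I → IsIdl J → I ≤ S → J ≤ S → I ≤ J ∨ J ≤ I)
    {x y : B} (hx : 0 ≤ x) (hy : 0 ≤ y) (hxS : x ∈ S) (hyS : y ∈ S) {ε : ℝ} (hε : 0 < ε) :
    ∃ s ∈ S, ∃ t ∈ S, ‖star s * (x * x) * s - x * x‖ < ε ∧ ‖star t * (y * y) * t - y * y‖ < ε ∧
      ‖star s * (x * y) * t‖ < ε := by
  set ε₀ : ℝ := min 1 (ε / (4 * (‖x‖ + ‖y‖ + 1))) with hε₀
  have hε₀0 : 0 < ε₀ := lt_min one_pos (by positivity)
  have hbd : ∀ r : ℝ, 0 ≤ r → r ≤ ‖x‖ + ‖y‖ → ε₀ * (2 * r + 1) ≤ ε / 2 := by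
    intro r hr0 hr
    calc ε₀ * (2 * r + 1) ≤ (ε / (4 * (‖x‖ + ‖y‖ + 1))) * (2 * (‖x‖ + ‖y‖ + 1)) := by
          have h1 : ε₀ ≤ ε / (4 * (‖x‖ + ‖y‖ + 1)) := min_le_right _ _
          have h2 : 2 * r + 1 ≤ 2 * (‖x‖ + ‖y‖ + 1) := by linarith
          gcongr
      _ = ε / 2 := by field_simp; norm_num
  obtain ⟨g, e, d, hgS, heS, he, hen, hxg, hd, hed, hxd⟩ := cutoff hS hx hxS hε₀0
  obtain ⟨g', e', d', hgS', heS', he', hen', hyg, hd', hed', hyd⟩ := cutoff hS hy hyS hε₀0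
  obtain ⟨c, c', hc, hc', hgood⟩ := good hS hPI hTO he he' heS heS' hen hen' hed hed'
  set M : ℝ := (‖d * d‖ + ε / 2 + 1) / c with hM
  set M' : ℝ := (‖d' * d'‖ + ε / 2 + 1) / c' with hM'
  have hM0 : 0 < M := by positivity
  have hM0' : 0 < M' := by positivity
  obtain ⟨C, D, hCD, hdC, hdD⟩ := hgood (ε / (2 * (M * M'))) (by positivity)
  have hpi : ∀ (a : B), a ∈ S → ∀ r : ℝ, PIat (cut (r ^ 2) (a * star a)) := fun a ha r =>
    hPI _ (cut_mem hS (mul_star_self_nonneg a) ((hS.2 _ a ha).2) (sq_nonneg r)) (cut_nonneg _ _)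
  obtain ⟨w, hw, hwn⟩ := exists_w (e * C) hc (hpi _ ((hS.2 _ e heS).2) c) hd hdC
    (show 0 < ε / 2 by positivity)
  obtain ⟨w', hw', hwn'⟩ := exists_w (e' * D) hc' (hpi _ ((hS.2 _ e' heS').2) c') hd' hdD
    (show 0 < ε / 2 by positivity)
  have hwM : ∀ (v : B) (b K : ℝ), 0 < b → 0 ≤ K → b ^ 2 * ‖v‖ ^ 2 ≤ K → ‖v‖ ≤ (K + 1) / b := by
    intro v b K hb hK h
    rw [le_div_iff₀ hb]
    refine le_of_sq_le_sq ?_ (by positivity)
    nlinarith
  have hwM1 : ‖w‖ ≤ M := hwM w c (‖d * d‖ + ε / 2) hc (by positivity) hwn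
  have hwM2 : ‖w'‖ ≤ M' := hwM w' c' (‖d' * d'‖ + ε / 2) hc' (by positivity) hwn'
  have hxs : x * (g * C * w) = e * C * w := by
    rw [← hxg]; simp only [mul_assoc]
  have hyt : y * (g' * D * w') = e' * D * w' := by
    rw [← hyg]; simp only [mul_assoc]
  have hxx : star x = x := IsSelfAdjoint.of_nonneg hx
  have hyy : star y = y := IsSelfAdjoint.of_nonneg hy
  have key : ∀ (u v p q : B), star u = u → star (p) * (u * v) * q = star (u * p) * (v * q) := by
    intro u v p q hu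
    rw [star_mul, hu]; simp only [mul_assoc]
  refine ⟨g * C * w, (hS.2 _ _ ((hS.2 _ g hgS).2)).2, g' * D * w',
    (hS.2 _ _ ((hS.2 _ g' hgS').2)).2, ?_, ?_, ?_⟩
  · rw [key x x _ _ hxx, hxs]
    have h1 := norm_sq_sub hxd (min_le_left _ _)
    have h2 := hbd ‖x‖ (norm_nonneg _) (by linarith [norm_nonneg y])
    have e1 : star (e * C * w) * (e * C * w) - x * x
        = (star (e * C * w) * (e * C * w) - d * d) + (d * d - x * x) := by abel
    rw [e1]
    exact (norm_add_le _ _).trans_lt (by linarith)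
  · rw [key y y _ _ hyy, hyt]
    have h1 := norm_sq_sub hyd (min_le_left _ _)
    have h2 := hbd ‖y‖ (norm_nonneg _) (by linarith [norm_nonneg x])
    have e1 : star (e' * D * w') * (e' * D * w') - y * y
        = (star (e' * D * w') * (e' * D * w') - d' * d') + (d' * d' - y * y) := by abel
    rw [e1]
    exact (norm_add_le _ _).trans_lt (by linarith)
  · rw [key x y _ _ hxx, hxs, hyt]
    have e1 : star (e * C * w) * (e' * D * w') = star w * (star (e * C) * (e' * D)) * w' := by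
      simp only [star_mul, mul_assoc]
    rw [e1]
    calc ‖star w * (star (e * C) * (e' * D)) * w'‖
        ≤ ‖star w‖ * ‖star (e * C) * (e' * D)‖ * ‖w'‖ :=
          (norm_mul_le _ _).trans (by gcongr; exact norm_mul_le _ _)
      _ ≤ M * (ε / (2 * (M * M'))) * M' := by
          rw [norm_star]; gcongr
      _ = ε / 2 := by field_simp
      _ < ε := by linarith

end ord

variable {A : Type u} [NonUnitalCStarAlgebra A]

/-- `A` as a subspace of its unitization. -/
noncomputable def SA (A : Type u) [NonUnitalCStarAlgebra A] : Submodule ℂ (Unitization ℂ A) :=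
  LinearMap.range (Unitization.inrHom ℂ ℂ A)

theorem mem_SA {z : Unitization ℂ A} : z ∈ SA A ↔ ∃ a : A, (a : Unitization ℂ A) = z :=
  LinearMap.mem_range

theorem mem_SA' {z : Unitization ℂ A} : z ∈ SA A ↔ z.fst = 0 := by
  rw [mem_SA]
  constructor
  · rintro ⟨a, rfl⟩
    simp
  · intro h
    refine ⟨z.snd, ?_⟩
    ext <;> simp [h]

theorem isIdl_SA : IsIdl (SA A) := by
  constructor
  · have h : (SA A : Set (Unitization ℂ A)) = Set.range (fun a : A => (a : Unitization ℂ A)) := by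
      ext z; exact mem_SA
    rw [h]
    exact (Unitization.isometry_inr (𝕜 := ℂ) (A := A)).isClosedEmbedding.isClosed_range
  · intro a x hx
    rw [mem_SA'] at hx ⊢
    rw [mem_SA']
    simp [hx]

theorem TO_SA (hTO : TotallyOrderedIdeals A) (I J : Submodule ℂ (Unitization ℂ A)) (hI : IsIdl I)
    (hJ : IsIdl J) (hIS : I ≤ SA A) (hJS : J ≤ SA A) : I ≤ J ∨ J ≤ I := by
  have hc : ∀ K : Submodule ℂ (Unitization ℂ A), IsIdl K →
      IsClosedIdeal (K.comap (Unitization.inrHom ℂ ℂ A)) := by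
    intro K hK
    refine ⟨hK.1.preimage (Unitization.isometry_inr (𝕜 := ℂ) (A := A)).continuous,
      fun a x hx => ?_⟩
    have h1 := hK.2 (a : Unitization ℂ A) _ hx
    rw [Unitization.inrHom_apply, ← Unitization.inr_mul, ← Unitization.inr_mul] at h1
    exact h1
  have hle : ∀ K L : Submodule ℂ (Unitization ℂ A), K ≤ SA A →
      K.comap (Unitization.inrHom ℂ ℂ A) ≤ L.comap (Unitization.inrHom ℂ ℂ A) → K ≤ L := by
    intro K L hK h z hz
    obtain ⟨a, rfl⟩ := mem_SA.1 (hK hz)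
    exact h hz
  rcases hTO _ _ (hc I hI) (hc J hJ) with h | h
  · exact Or.inl (hle I J hIS h)
  · exact Or.inr (hle J I hJS h)

theorem exists_root {G : Unitization ℂ A} [PartialOrder (Unitization ℂ A)]
    [StarOrderedRing (Unitization ℂ A)] (hG0 : 0 ≤ G) (hG : G ∈ SA A) :
    ∃ a : A, star a = a ∧ ((a * a : A) : Unitization ℂ A) = G ∧ 0 ≤ (a : Unitization ℂ A) := by
  set r := cfc Real.sqrt G with hr
  have hrs : star r = r := star_cfc _ _
  have hrr : r * r = G := by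
    have h2 : cfc (fun t : ℝ => t) G = r * r :=
      F_mul hG0 Real.continuous_sqrt Real.continuous_sqrt
        (fun t ht => (Real.mul_self_sqrt ht).symm)
    rw [← h2, cfc_id' ℝ G (IsSelfAdjoint.of_nonneg hG0)]
  have hrS : r ∈ SA A := by
    rw [mem_SA'] at hG ⊢
    rw [← hrr] at hG
    simpa using hG
  obtain ⟨a, ha⟩ := mem_SA.1 hrS
  refine ⟨a, ?_, ?_, ?_⟩
  · refine Unitization.inr_injective (R := ℂ) ?_
    rw [Unitization.inr_star, ha, hrs]
  · rw [Unitization.inr_mul, ha, hrr]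
  · rw [ha]
    exact cfc_nonneg (fun t _ => Real.sqrt_nonneg t)

theorem nonneg_of_isPos [PartialOrder (Unitization ℂ A)]
    [StarOrderedRing (Unitization ℂ A)] {x : A} (hx : IsPos x) : 0 ≤ (x : Unitization ℂ A) := by
  obtain ⟨y, rfl⟩ := hx
  rw [Unitization.inr_mul, Unitization.inr_star]
  exact star_mul_self_nonneg _

theorem isPos_of_nonneg [PartialOrder (Unitization ℂ A)]
    [StarOrderedRing (Unitization ℂ A)] {x : A} (hx : 0 ≤ (x : Unitization ℂ A)) : IsPos x := by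
  obtain ⟨a, ha, haa, _⟩ := exists_root hx (mem_SA.2 ⟨x, rfl⟩)
  exact ⟨a, by rw [ha]; exact (Unitization.inr_injective (R := ℂ) haa).symm⟩

theorem exists_sqrt {h : A} (hh : IsPos h) : ∃ a : A, IsPos a ∧ star a = a ∧ a * a = h := by
  let _ := CStarAlgebra.spectralOrder (Unitization ℂ A)
  have _ := CStarAlgebra.spectralOrderedRing (Unitization ℂ A)
  obtain ⟨a, ha, haa, ha0⟩ := exists_root (nonneg_of_isPos hh) (mem_SA.2 ⟨h, rfl⟩)
  exact ⟨a, isPos_of_nonneg ha0, ha, Unitization.inr_injective (R := ℂ) haa⟩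

theorem entry_eq {n : ℕ} (h : A) (x : Matrix (Fin n) (Fin n ⊕ Fin n) A) (i j : Fin n ⊕ Fin n) :
    (x.conjTranspose * (Matrix.diagonal fun _ : Fin n => h) * x -
      Matrix.diagonal fun _ : Fin n ⊕ Fin n => h) i j =
      ∑ k, star (x k i) * h * x k j - (if i = j then h else 0) := by
  rw [Matrix.sub_apply, Matrix.mul_apply, Matrix.diagonal_apply]
  simp [Matrix.conjTranspose_apply]

theorem amplPI_iff {n : ℕ} {h : A} : AmplPI n h ↔ ∀ ε : ℝ, 0 < ε →
    ∃ x : Matrix (Fin n) (Fin n ⊕ Fin n) A, ∀ i j,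
      ‖∑ k, star (x k i) * h * x k j - (if i = j then h else 0)‖ < ε := by
  unfold AmplPI CuntzLE
  simp only [entry_eq]

theorem pi_of_spi (hA : StronglyPurelyInfinite A) : PurelyInfinite A := by
  intro h hh
  rw [amplPI_iff]
  intro ε hε
  obtain ⟨a, ha, has, haa⟩ := exists_sqrt hh
  obtain ⟨s, t, h1, h2, h3⟩ := hA a a ha ha ε hε
  rw [haa] at h1 h2 h3
  have hhs : star h = h := by rw [← haa, star_mul, has]
  refine ⟨fun _ i => Sum.elim (fun _ => s) (fun _ => t) i, ?_⟩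
  rintro (i | i) (j | j)
  · simpa [Subsingleton.elim i j] using h1
  · simpa using h3
  · have h4 : ‖star t * h * s‖ < ε := by
      rw [← norm_star]
      simpa [star_mul, mul_assoc, hhs] using h3
    simpa using h4
  · simpa [Subsingleton.elim i j] using h2

theorem wpi_of_pi (hA : PurelyInfinite A) : WeaklyPurelyInfinite A := ⟨1, le_rfl, hA⟩

theorem spi_of_pi (hTO : TotallyOrderedIdeals A) (h : PurelyInfinite A) :
    StronglyPurelyInfinite A := by
  let _ := CStarAlgebra.spectralOrder (Unitization ℂ A)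
  have _ := CStarAlgebra.spectralOrderedRing (Unitization ℂ A)
  have hPI : ∀ G ∈ SA A, 0 ≤ G → PIat G := by
    intro G hG hG0 ε hε
    obtain ⟨a, has, haa, _⟩ := exists_root hG0 hG
    have hGa : G = ((a * a : A) : Unitization ℂ A) := haa.symm
    obtain ⟨x, hx⟩ := amplPI_iff.1 (h (a * a) ⟨a, by rw [has]⟩) ε hε
    have hn : ∀ i j, ‖star ((x 0 i : A) : Unitization ℂ A) * G * ((x 0 j : A) : Unitization ℂ A) -
        (if i = j then G else 0)‖ < ε := by
      intro i j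
      have h1 := hx i j
      rw [Fin.sum_univ_one, ← Unitization.norm_inr (𝕜 := ℂ) (A := A)] at h1
      rw [hGa]
      by_cases hij : i = j
      · simpa [hij] using h1
      · simpa [hij] using h1
    refine ⟨x 0 (Sum.inl 0), x 0 (Sum.inr 0), ?_, ?_, ?_⟩
    · simpa using hn (Sum.inl 0) (Sum.inl 0)
    · simpa using hn (Sum.inr 0) (Sum.inr 0)
    · simpa using hn (Sum.inl 0) (Sum.inr 0)
  intro x y hx hy ε hε
  obtain ⟨s, hs, t, ht, h1, h2, h3⟩ := core isIdl_SA hPI (TO_SA hTO) (nonneg_of_isPos hx)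
    (nonneg_of_isPos hy)
    (mem_SA.2 ⟨x, rfl⟩) (mem_SA.2 ⟨y, rfl⟩) hε
  obtain ⟨s', rfl⟩ := mem_SA.1 hs
  obtain ⟨t', rfl⟩ := mem_SA.1 ht
  refine ⟨s', t', ?_, ?_, ?_⟩
  · rw [← Unitization.norm_inr (𝕜 := ℂ) (A := A)]
    simpa using h1
  · rw [← Unitization.norm_inr (𝕜 := ℂ) (A := A)]
    simpa using h2
  · rw [← Unitization.norm_inr (𝕜 := ℂ) (A := A)]
    simpa using h3

end Vale.Agent.P133
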