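import Vale.Agent.P133.Key

/-!
# P133: the three cases
-/

open scoped ComplexOrder

namespace Vale.Agent.P133

universe u

variable {B : Type u} [CStarAlgebra B] [PartialOrder B] [StarOrderedRing B]

theorem exists_split' (C : B) {μ : ℝ} (hμ : 0 < μ) :
    ∃ q ∈ idl (cut μ (C * star C)), ‖C - q‖ ^ 2 ≤ 2 * μ := by
  obtain ⟨K, hK, hKm, hKn⟩ := exists_split (star C) hμ
  rw [star_star] at hKm
  refine ⟨K * C, ((isIdl_idl _).2 C K hKm).2, ?_⟩
  have h : ‖C - K * C‖ = ‖star C * (1 - K)‖ := by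
    rw [← norm_star, star_sub, star_mul, hK, mul_sub, mul_one]
  rwa [h]

theorem cut_mem {S : Submodule ℂ B} (hS : IsIdl S) {G : B} (hG0 : 0 ≤ G) (hG : G ∈ S) {ν : ℝ}
    (hν : 0 ≤ ν) : cut ν G ∈ S :=
  cut_mono_mem hS hG0 hν (by rwa [cut_zero hG0])

/-- What the construction has to provide. -/
def Good (e e' d d' : B) : Prop :=
  ∃ c c' : ℝ, 0 < c ∧ 0 < c' ∧ ∀ η : ℝ, 0 < η → ∃ C' B' : B,
    ‖star (e * C') * (e' * B')‖ ≤ η ∧ d ∈ idl (cut (c ^ 2) (e * C' * star (e * C'))) ∧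
      d' ∈ idl (cut (c' ^ 2) (e' * B' * star (e' * B')))

theorem Good.symm {e e' d d' : B} (h : Good e' e d' d) : Good e e' d d' := by
  obtain ⟨c, c', hc, hc', h⟩ := h
  refine ⟨c', c, hc', hc, fun η hη => ?_⟩
  obtain ⟨C', B', h1, h2, h3⟩ := h η hη
  refine ⟨B', C', ?_, h3, h2⟩
  rw [← norm_star, star_mul, star_star]
  exact h1

theorem swap_mem (a : B) {μ : ℝ} (hμ : 0 < μ) :
    cut (4 * μ) (a * star a) ∈ idl (cut μ (star a * a)) := by
  obtain ⟨K, hK, hKm, hKn⟩ := exists_split a hμ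
  have hI := isIdl_idl (cut μ (star a * a))
  have h0 : cut 0 (a * star a) = (a * K * star a + a * (1 - K) * (K * star a)) +
      (a * (1 - K)) * star (a * (1 - K)) := by
    rw [cut_zero (mul_star_self_nonneg a), star_mul, star_sub, star_one, hK]
    noncomm_ring
  have h1 := cut_mem_of_dist hI (mul_star_self_nonneg a) (ν := 0) (β := 4 * μ) (by positivity) h0
    (Submodule.add_mem _ ((hI.2 _ _ ((hI.2 a _ hKm).1)).2)
      ((hI.2 _ _ ((hI.2 (star a) _ hKm).2)).1))
    (by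
      rw [CStarRing.norm_self_mul_star, ← sq]
      linarith)
  rwa [zero_add] at h1

theorem case2 {S : Submodule ℂ B} (hS : IsIdl S)
    (hTO : ∀ I J : Submodule ℂ B, IsIdl I → IsIdl J → I ≤ S → J ≤ S → I ≤ J ∨ J ≤ I)
    {e e' d d' : B} (he : star e = e) (he' : star e' = e') (heS : e ∈ S) (hed : e * d = d)
    (hed' : e' * d' = d')
    (h : ∀ μ : ℝ, 0 < μ → d ∉ idl (cut μ (star (e' * e) * (e' * e)))) : Good e e' d d' := by
  refine ⟨1 / 2, 1 / 2, by norm_num, by norm_num, fun η hη => ?_⟩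
  set a : B := e' * e with ha
  obtain ⟨K, hK, hKm, hKn⟩ := exists_split a (μ := η ^ 2 / 2) (by positivity)
  refine ⟨1 - K, 1, ?_, ?_, ?_⟩
  · have h1 : star (e * (1 - K)) * (e' * 1) = star (a * (1 - K)) := by
      rw [ha]
      simp only [star_mul, star_sub, star_one, hK, he, he', mul_one, mul_assoc]
    rw [h1, norm_star]
    refine le_of_sq_le_sq ?_ hη.le
    linarith
  · obtain ⟨q, hq, hqn⟩ := exists_split' (e * (1 - K)) (μ := (1 / 2 : ℝ) ^ 2) (by norm_num)
    have hn : ‖e * (1 - K) - q‖ < 1 := by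
      by_contra hcon
      rw [not_lt] at hcon
      nlinarith
    have hes : e = (q + e * K) + (e * (1 - K) - q) := by noncomm_ring
    set Q := idl (cut ((1 / 2 : ℝ) ^ 2) (e * (1 - K) * star (e * (1 - K)))) with hQ
    set J := idl (cut (η ^ 2 / 2) (star a * a)) with hJ
    have hQi : IsIdl Q := isIdl_idl _
    have hJi : IsIdl J := isIdl_idl _
    have hCS : e * (1 - K) ∈ S := (hS.2 _ e heS).2
    have hQS : Q ≤ S := idl_le hS (cut_mem hS (mul_star_self_nonneg _) ((hS.2 _ _ hCS).2)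
      (by norm_num))
    have haS : a ∈ S := (hS.2 _ e heS).1
    have hJS : J ≤ S := idl_le hS (cut_mem hS (star_mul_self_nonneg _) ((hS.2 _ _ haS).1)
      (by positivity))
    rcases hTO Q J hQi hJi hQS hJS with h1 | h1
    · exact absurd (mem_of_dist hJi hes (J.add_mem (h1 hq) ((hJi.2 e K hKm).1)) hn hed)
        (h _ (by positivity))
    · exact mem_of_dist hQi hes (Q.add_mem hq (h1 ((hJi.2 e K hKm).1))) hn hed
  · rw [mul_one]
    obtain ⟨q, hq, hqn⟩ := exists_split' e' (μ := (1 / 2 : ℝ) ^ 2) (by norm_num)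
    have hn : ‖e' - q‖ < 1 := by
      by_contra hcon
      rw [not_lt] at hcon
      nlinarith
    exact mem_of_dist (isIdl_idl _) (show e' = q + (e' - q) by abel) hq hn hed'

theorem cover {T R U C₀ z : B} {μ L c ε : ℝ} (hT : 0 ≤ T) (hR : R = cut (μ / 2) T) (hμ : 0 < μ)
    (hc : 0 < c) (hz : ‖star z * R * z - R‖ < ε) (hU : star z * R * z = U * C₀) (hUL : ‖U‖ ≤ L)
    (hL : L * (2 * c) + ε < μ / 2) : cut μ T ∈ idl (cut (c ^ 2) (C₀ * star C₀)) := by
  obtain ⟨q, hq, hqn⟩ := exists_split' C₀ (μ := c ^ 2) (by positivity)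
  have hn : ‖C₀ - q‖ ≤ 2 * c := by
    refine le_of_sq_le_sq ?_ (by positivity)
    nlinarith [sq_nonneg c]
  have hI := isIdl_idl (cut (c ^ 2) (C₀ * star C₀))
  have h0 : cut (μ / 2) T = U * q + (U * (C₀ - q) + (R - star z * R * z)) := by
    rw [← hR, hU]
    noncomm_ring
  have h1 := cut_mem_of_dist hI hT (ν := μ / 2) (β := μ / 2) (by positivity) h0
    ((hI.2 U q hq).1) (by
      have h2 : ‖R - star z * R * z‖ < ε := by rwa [norm_sub_rev]
      have h3 : ‖U * (C₀ - q)‖ ≤ L * (2 * c) :=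
        (norm_mul_le _ _).trans (mul_le_mul hUL hn (norm_nonneg _) ((norm_nonneg U).trans hUL))
      linarith [norm_add_le (U * (C₀ - q)) (R - star z * R * z)])
  rwa [add_halves] at h1

theorem case1 {S : Submodule ℂ B} (hS : IsIdl S) (hPI : ∀ G ∈ S, 0 ≤ G → PIat G)
    {e e' d d' : B} (he : star e = e) (he' : star e' = e') (heS : e ∈ S) (hen : ‖e‖ ≤ 1)
    (hen' : ‖e'‖ ≤ 1) {μ : ℝ} (hμ : 0 < μ)
    (hd : d ∈ idl (cut μ (star (e' * e) * (e' * e))))
    (hd' : d' ∈ idl (cut μ (star (e' * e) * (e' * e)))) : Good e e' d d' := by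
  set T : B := star (e' * e) * (e' * e) with hT
  have hT0 : 0 ≤ T := star_mul_self_nonneg _
  have hTe : T = e * e' * e' * e := by
    rw [hT]
    simp only [star_mul, he, he', mul_assoc]
  have hTS : T ∈ S := (hS.2 _ _ ((hS.2 e' e heS).1)).1
  set R : B := cut (μ / 2) T with hR
  have hR0 : 0 ≤ R := cut_nonneg _ _
  have hRS : R ∈ S := cut_mem hS hT0 hTS (by positivity)
  set L : ℝ := 2 / μ * (‖R‖ + 1) + 1 with hL
  have hL0 : 0 < L := by positivity
  have hc : 0 < μ / (8 * L) := by positivity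
  refine ⟨μ / (8 * L), μ / (8 * L), hc, hc, fun η hη => ?_⟩
  set ε : ℝ := min 1 (min (μ / 8) η) with hε
  have hε0 : 0 < ε := lt_min one_pos (lt_min (by positivity) hη)
  have hε1 : ε ≤ 1 := min_le_left _ _
  have hε2 : ε ≤ μ / 8 := (min_le_right _ _).trans (min_le_left _ _)
  have hε3 : ε ≤ η := (min_le_right _ _).trans (min_le_right _ _)
  obtain ⟨z₁, z₂, h11, h22, h12⟩ := hPI R hRS hR0 ε hε0
  set κ : ℝ → ℝ := fun t => Real.sqrt (max (t - μ / 2) 0 * (max t (μ / 2))⁻¹) with hκ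
  have hm0 : ∀ t : ℝ, 0 < max t (μ / 2) := fun t =>
    lt_of_lt_of_le (by positivity) (le_max_right _ _)
  have hκc : Continuous κ := by
    refine Real.continuous_sqrt.comp (Continuous.mul (by fun_prop) ?_)
    exact Continuous.inv₀ (by fun_prop) (fun t => (hm0 t).ne')
  have hκκ : ∀ t, κ t * κ t = max (t - μ / 2) 0 * (max t (μ / 2))⁻¹ := fun t =>
    Real.mul_self_sqrt (mul_nonneg (le_max_right _ _) (inv_nonneg.2 (hm0 t).le))
  set k : B := cfc κ T with hk
  have hks : star k = k := star_cfc _ _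
  have hkTk : k * T * k = R := by
    rw [hR, cut]
    rw [F_mul hT0 (f := fun t => κ t * t) (g := κ) (hκc.mul continuous_id') hκc
      (h := fun t : ℝ => max (t - μ / 2) 0), F_mulX hT0 hκc (h := fun t => κ t * t)
      (fun t _ => rfl)]
    intro t ht
    have h1 : κ t * t * κ t = (κ t * κ t) * t := by ring
    show max (t - μ / 2) 0 = κ t * t * κ t
    rw [h1, hκκ]
    rcases le_or_gt t (μ / 2) with h | h
    · rw [max_eq_right (show t - μ / 2 ≤ 0 by linarith)]
      ring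
    · rw [max_eq_left h.le, mul_assoc, inv_mul_cancel₀ (by linarith), mul_one]
  have hkk : k * k ≤ (2 / μ) • R := by
    rw [hR, cut, ← cfc_const_mul (2 / μ) _ T (by fun_prop), hk,
      ← F_mul hT0 hκc hκc (h := fun t => κ t * κ t) (fun t _ => rfl)]
    refine F_mono hT0 (hκc.mul hκc) (by fun_prop) fun t ht => ?_
    show κ t * κ t ≤ 2 / μ * max (t - μ / 2) 0
    rw [hκκ, mul_comm]
    refine mul_le_mul_of_nonneg_right ?_ (le_max_right _ _)
    have h1 : (max t (μ / 2))⁻¹ ≤ (μ / 2)⁻¹ := inv_anti₀ (by positivity) (le_max_right _ _)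
    rwa [inv_div] at h1
  have hζ : ∀ z : B, ‖star z * R * z - R‖ < ε → ‖k * z‖ ≤ L := by
    intro z hz
    have h1 : ‖k * z‖ ^ 2 ≤ 2 / μ * (‖R‖ + 1) := by
      rw [norm_sq_eq]
      have h2 : star (k * z) * (k * z) = star z * (k * k) * z := by
        simp only [star_mul, hks, mul_assoc]
      have h3 : star z * (k * k) * z ≤ (2 / μ) • (star z * R * z) := by
        have := conj_le hkk z
        rwa [mul_smul_comm, smul_mul_assoc] at this
      rw [h2]
      have h4 : 0 ≤ star z * (k * k) * z := by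
        rw [← h2]; exact star_mul_self_nonneg _
      refine (CStarAlgebra.norm_le_norm_of_nonneg_of_le h4 h3).trans ?_
      rw [norm_smul, Real.norm_eq_abs, abs_of_pos (by positivity)]
      have h5 : ‖star z * R * z‖ ≤ ‖R‖ + 1 := by
        have h6 : star z * R * z = R + (star z * R * z - R) := by abel
        rw [h6]
        exact (norm_add_le _ _).trans (by linarith)
      gcongr
    refine le_of_sq_le_sq ?_ hL0.le
    nlinarith [h1, mul_nonneg (show (0:ℝ) ≤ 2 / μ by positivity)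
      (show (0:ℝ) ≤ ‖R‖ + 1 by positivity)]
  have hzz : ∀ z z' : B, star (k * z) * e * e' * e' * e * (k * z') = star z * R * z' := by
    intro z z'
    rw [← hkTk, hTe]
    simp only [star_mul, hks, mul_assoc]
  have hLL : L * (2 * (μ / (8 * L))) + ε < μ / 2 := by
    have : L * (2 * (μ / (8 * L))) = μ / 4 := by field_simp; ring
    rw [this]; linarith
  have hU1 : ‖star (k * z₁) * e * e' * e'‖ ≤ L := by
    calc ‖star (k * z₁) * e * e' * e'‖ ≤ ‖star (k * z₁)‖ * ‖e‖ * ‖e'‖ * ‖e'‖ := by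
          refine (norm_mul_le _ _).trans ?_
          gcongr
          refine (norm_mul_le _ _).trans ?_
          gcongr
          exact norm_mul_le _ _
      _ ≤ L * 1 * 1 * 1 := by
          rw [norm_star]
          have := hζ z₁ h11
          gcongr
      _ = L := by ring
  have hU2 : ‖star (k * z₂) * e‖ ≤ L := by
    calc ‖star (k * z₂) * e‖ ≤ ‖star (k * z₂)‖ * ‖e‖ := norm_mul_le _ _
      _ ≤ L * 1 := by
          rw [norm_star]
          have := hζ z₂ h22
          gcongr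
      _ = L := by ring
  refine ⟨k * z₁, e' * e * (k * z₂), ?_, ?_, ?_⟩
  · have h1 : star (e * (k * z₁)) * (e' * (e' * e * (k * z₂))) = star z₁ * R * z₂ := by
      rw [← hzz]
      simp only [star_mul, he, mul_assoc]
    rw [h1]
    exact h12.le.trans hε3
  · refine idl_le (isIdl_idl _) (cover hT0 hR hμ hc h11 (U := star (k * z₁) * e * e' * e')
      ?_ hU1 hLL) hd
    rw [← hzz]
    simp only [mul_assoc]
  · refine idl_le (isIdl_idl _) (cover hT0 hR hμ hc h22 (U := star (k * z₂) * e)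
      ?_ hU2 hLL) hd'
    rw [← hzz]
    simp only [mul_assoc]

theorem good {S : Submodule ℂ B} (hS : IsIdl S) (hPI : ∀ G ∈ S, 0 ≤ G → PIat G)
    (hTO : ∀ I J : Submodule ℂ B, IsIdl I → IsIdl J → I ≤ S → J ≤ S → I ≤ J ∨ J ≤ I)
    {e e' d d' : B} (he : star e = e) (he' : star e' = e') (heS : e ∈ S) (heS' : e' ∈ S)
    (hen : ‖e‖ ≤ 1) (hen' : ‖e'‖ ≤ 1) (hed : e * d = d) (hed' : e' * d' = d') :
    Good e e' d d' := by
  by_cases h1 : ∃ μ : ℝ, 0 < μ ∧ d ∈ idl (cut μ (star (e' * e) * (e' * e))) ∧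
      d' ∈ idl (cut μ (star (e' * e) * (e' * e)))
  · obtain ⟨μ, hμ, hd, hd'⟩ := h1
    exact case1 hS hPI he he' heS hen hen' hμ hd hd'
  by_cases h2 : ∀ μ : ℝ, 0 < μ → d ∉ idl (cut μ (star (e' * e) * (e' * e)))
  · exact case2 hS hTO he he' heS hed hed' h2
  refine Good.symm (case2 hS hTO he' he heS' hed' hed fun μ hμ hcon => h1 ?_)
  push Not at h2
  obtain ⟨μ₀, hμ₀, hd⟩ := h2
  set T : B := star (e' * e) * (e' * e) with hT
  have hT0 : 0 ≤ T := star_mul_self_nonneg _
  have hμ₁ : 0 < min μ₀ (μ / 4) := lt_min hμ₀ (by positivity)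
  refine ⟨min μ₀ (μ / 4), hμ₁, ?_, ?_⟩
  · exact idl_le (isIdl_idl _) (cut_mono_mem (isIdl_idl _) hT0 (min_le_left _ _)
      (self_mem_idl _)) hd
  · refine idl_le (isIdl_idl _) ?_ hcon
    have h3 := swap_mem (e' * e) hμ₁
    have h4 : star (e * e') * (e * e') = e' * e * star (e' * e) := by
      simp only [star_mul, he, he', mul_assoc]
    rw [h4]
    refine cut_mono_mem (isIdl_idl _) (mul_star_self_nonneg _) ?_ h3
    have := min_le_right μ₀ (μ / 4)
    linarith

end Vale.Agent.P133
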